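import Mathlib

/-! The measure theoretic core: two sheets over one base set exclude optimal Monge plans. -/

open scoped ENNReal
open MeasureTheory Set

namespace Vale.Agent.P121

variable {E : Type*} [MeasurableSpace E] [StandardBorelSpace E]

lemma exists_extend {B : Set E} (hB : MeasurableSet B) {f : E → E} (hf : Measurable f)
    (hinj : InjOn f B) {v : E → ℝ≥0∞} (hv : Measurable v) :
    ∃ w : E → ℝ≥0∞, Measurable w ∧ (∀ x ∈ B, w (f x) = v x) ∧
      ∀ a, (∀ x ∈ B, a ≠ f x) → w a = 0 := by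
  have hemb : MeasurableEmbedding (fun x : B => f x) :=
    { injective := fun x y h => Subtype.ext (hinj x.2 y.2 h)
      measurable := hf.comp measurable_subtype_coe
      measurableSet_image' := by
        intro s hs
        have h1 : MeasurableSet ((↑) '' s : Set E) :=
          (MeasurableEmbedding.subtype_coe hB).measurableSet_image.2 hs
        have h2 := h1.image_of_measurable_injOn hf (hinj.mono (by
          rintro _ ⟨x, -, rfl⟩; exact x.2))
        rwa [image_image] at h2 }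
  refine ⟨Function.extend (fun x : B => f x) (fun x : B => v x) (fun _ => 0),
    hemb.measurable_extend (hv.comp measurable_subtype_coe) measurable_const, ?_, ?_⟩
  · intro x hx
    exact hemb.injective.extend_apply (fun x : B => v x) (fun _ => 0) ⟨x, hx⟩
  · intro a ha
    rw [Function.extend_apply']
    rintro ⟨x, hx⟩
    exact ha x x.2 hx.symm

/-- The configuration of two sheets over the base set `B`. -/
structure Sheets (B : Set E) (Y Z : Bool → E → E) : Prop where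
  hB : MeasurableSet B
  hY : ∀ k, Measurable (Y k)
  hZ : ∀ k, Measurable (Z k)
  hYY : ∀ k j, ∀ x ∈ B, ∀ x' ∈ B, Y k x = Y j x' → k = j ∧ x = x'
  hZZ : ∀ k j, ∀ x ∈ B, ∀ x' ∈ B, Z k x = Z j x' → k = j ∧ x = x'
  hYZ : ∀ k j, ∀ x ∈ B, ∀ x' ∈ B, Y k x ≠ Z j x'
  hYB : ∀ k, ∀ x ∈ B, Y k x ∉ B
  hZB : ∀ k, ∀ x ∈ B, Z k x ∉ B

lemma Sheets.exists_pot {B : Set E} {Y Z : Bool → E → E} (h : Sheets B Y Z)
    {v₀ : E → ℝ≥0∞} {v₁ v₂ : Bool → E → ℝ≥0∞} (h0 : Measurable v₀) (h1 : ∀ k, Measurable (v₁ k))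
    (h2 : ∀ k, Measurable (v₂ k)) :
    ∃ U : E → ℝ≥0∞, Measurable U ∧ (∀ x ∈ B, U x = v₀ x) ∧ (∀ k, ∀ x ∈ B, U (Y k x) = v₁ k x) ∧
      (∀ k, ∀ x ∈ B, U (Z k x) = v₂ k x) := by
  choose w1 w1m w1a w1b using fun k => exists_extend h.hB (h.hY k)
    (fun x hx x' hx' e => (h.hYY k k x hx x' hx' e).2) (h1 k)
  choose w2 w2m w2a w2b using fun k => exists_extend h.hB (h.hZ k)
    (fun x hx x' hx' e => (h.hZZ k k x hx x' hx' e).2) (h2 k)
  refine ⟨fun a => B.indicator v₀ a + ∑ k, (w1 k a + w2 k a), ?_, ?_, ?_, ?_⟩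
  · exact (h0.indicator h.hB).add (Finset.measurable_sum _ fun k _ => (w1m k).add (w2m k))
  · intro x hx
    have a1 : ∀ k, w1 k x = 0 := fun k => w1b k x fun x' hx' e => h.hYB k x' hx' (e ▸ hx)
    have a2 : ∀ k, w2 k x = 0 := fun k => w2b k x fun x' hx' e => h.hZB k x' hx' (e ▸ hx)
    simp [a1, a2, indicator_of_mem hx]
  · intro k x hx
    have a2 : ∀ j, w2 j (Y k x) = 0 := fun j => w2b j _ fun x' hx' e => h.hYZ k j x hx x' hx' e
    have a1 : w1 (!k) (Y k x) = 0 := w1b _ _ fun x' hx' e => by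
      have := (h.hYY _ _ x hx x' hx' e).1
      simp at this
    cases k <;> simp_all [indicator_of_notMem (h.hYB _ x hx)]
  · intro k x hx
    have a2 : ∀ j, w1 j (Z k x) = 0 := fun j => w1b j _ fun x' hx' e => h.hYZ j k x' hx' x hx e.symm
    have a1 : w2 (!k) (Z k x) = 0 := w2b _ _ fun x' hx' e => by
      have := (h.hZZ _ _ x hx x' hx' e).1
      simp at this
    cases k <;> simp_all [indicator_of_notMem (h.hZB _ x hx)]

/-- The union of the five pieces. -/
def supp (B : Set E) (Y Z : Bool → E → E) : Set E := B ∪ ⋃ k, (Y k '' B ∪ Z k '' B)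

/-- The one-particle measure. -/
noncomputable def mix (ν : Measure E) (Y Z : Bool → E → E) : Measure E :=
  (6 : ℝ≥0∞)⁻¹ • ∑ k, (ν + ν.map (Y k) + ν.map (Z k))

lemma Sheets.measurableSet_supp {B : Set E} {Y Z : Bool → E → E} (h : Sheets B Y Z) :
    MeasurableSet (supp B Y Z) :=
  h.hB.union (MeasurableSet.iUnion fun k =>
    (h.hB.image_of_measurable_injOn (h.hY k) fun x hx x' hx' e => (h.hYY k k x hx x' hx' e).2).union
    (h.hB.image_of_measurable_injOn (h.hZ k) fun x hx x' hx' e => (h.hZZ k k x hx x' hx' e).2))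

omit [StandardBorelSpace E] in
lemma Sheets.mix_apply {B : Set E} {Y Z : Bool → E → E} (h : Sheets B Y Z) (ν : Measure E)
    {s : Set E} (hs : MeasurableSet s) :
    mix ν Y Z s = 6⁻¹ * ∑ k, (ν s + ν (Y k ⁻¹' s) + ν (Z k ⁻¹' s)) := by
  simp [mix, Measure.map_apply (h.hY _) hs, Measure.map_apply (h.hZ _) hs, mul_add]

omit [StandardBorelSpace E] in
lemma Sheets.lintegral_mix {B : Set E} {Y Z : Bool → E → E} (h : Sheets B Y Z) (ν : Measure E)
    {f : E → ℝ≥0∞} (hf : Measurable f) :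
    ∫⁻ a, f a ∂(mix ν Y Z) =
      6⁻¹ * ∑ k, (∫⁻ a, f a ∂ν + ∫⁻ a, f (Y k a) ∂ν + ∫⁻ a, f (Z k a) ∂ν) := by
  simp [mix, lintegral_map hf (h.hY _), lintegral_map hf (h.hZ _), lintegral_add_measure, mul_add]

lemma six_inv_mul : (6 : ℝ≥0∞)⁻¹ * 6 = 1 := ENNReal.inv_mul_cancel (by norm_num) (by norm_num)

omit [StandardBorelSpace E] in
lemma Sheets.isProbabilityMeasure_mix {B : Set E} {Y Z : Bool → E → E} (h : Sheets B Y Z)
    (ν : Measure E) [IsProbabilityMeasure ν] : IsProbabilityMeasure (mix ν Y Z) := by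
  constructor
  rw [h.mix_apply ν MeasurableSet.univ]
  simp only [preimage_univ, measure_univ, Fintype.sum_bool]
  rw [show (1 + 1 + 1 + (1 + 1 + 1) : ℝ≥0∞) = 6 by norm_num, six_inv_mul]

lemma Sheets.ae_supp {B : Set E} {Y Z : Bool → E → E} (h : Sheets B Y Z)
    {ν : Measure E} (hν : ∀ᵐ x ∂ν, x ∈ B) : ∀ᵐ a ∂(mix ν Y Z), a ∈ supp B Y Z := by
  have a0 : ν (supp B Y Z)ᶜ = 0 := by
    have : ∀ᵐ x ∂ν, x ∈ supp B Y Z := hν.mono fun x hx => Or.inl hx
    exact this
  have a1 : ∀ k, ν (Y k ⁻¹' (supp B Y Z)ᶜ) = 0 := fun k => by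
    have : ∀ᵐ x ∂ν, Y k x ∈ supp B Y Z :=
      hν.mono fun x hx => Or.inr (mem_iUnion.2 ⟨k, Or.inl ⟨x, hx, rfl⟩⟩)
    exact this
  have a2 : ∀ k, ν (Z k ⁻¹' (supp B Y Z)ᶜ) = 0 := fun k => by
    have : ∀ᵐ x ∂ν, Z k x ∈ supp B Y Z :=
      hν.mono fun x hx => Or.inr (mem_iUnion.2 ⟨k, Or.inr ⟨x, hx, rfl⟩⟩)
    exact this
  change mix ν Y Z (supp B Y Z)ᶜ = 0
  rw [h.mix_apply ν h.measurableSet_supp.compl]
  simp only [a0, a1, a2, add_zero, Finset.sum_const_zero, mul_zero]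

omit [StandardBorelSpace E] in
/-- The symmetric optimal plan. -/
lemma Sheets.exists_plan {B : Set E} {Y Z : Bool → E → E} (h : Sheets B Y Z)
    {ν : Measure E} [IsProbabilityMeasure ν] (hν : ∀ᵐ x ∂ν, x ∈ B)
    {c : E → E → E → ℝ≥0∞} (hc : Measurable fun p : E × E × E => c p.1 p.2.1 p.2.2)
    (hcyc : ∀ a b d, c a b d = c b d a) {U : E → ℝ≥0∞} (hU : Measurable U)
    (H2 : ∀ k, ∀ x ∈ B, c x (Y k x) (Z k x) = U x + U (Y k x) + U (Z k x)) :
    ∃ π : Measure (E × E × E), IsProbabilityMeasure π ∧ π.map (fun p => p.1) = mix ν Y Z ∧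
      π.map (fun p => p.2.1) = mix ν Y Z ∧ π.map (fun p => p.2.2) = mix ν Y Z ∧
      ∫⁻ p, c p.1 p.2.1 p.2.2 ∂π = 3 * ∫⁻ a, U a ∂(mix ν Y Z) := by
  have m1 : ∀ k, Measurable fun x => (x, Y k x, Z k x) := fun k =>
    measurable_id.prodMk ((h.hY k).prodMk (h.hZ k))
  have m2 : ∀ k, Measurable fun x => (Y k x, Z k x, x) := fun k =>
    (h.hY k).prodMk ((h.hZ k).prodMk measurable_id)
  have m3 : ∀ k, Measurable fun x => (Z k x, x, Y k x) := fun k =>
    (h.hZ k).prodMk (measurable_id.prodMk (h.hY k))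
  let π : Measure (E × E × E) := (6 : ℝ≥0∞)⁻¹ • ∑ k, (ν.map (fun x => (x, Y k x, Z k x)) +
    ν.map (fun x => (Y k x, Z k x, x)) + ν.map (fun x => (Z k x, x, Y k x)))
  have p1 : Measurable fun p : E × E × E => p.1 := measurable_fst
  have p2 : Measurable fun p : E × E × E => p.2.1 := measurable_snd.fst
  have p3 : Measurable fun p : E × E × E => p.2.2 := measurable_snd.snd
  have e1 : π.map (fun p => p.1) = mix ν Y Z := by
    simp only [π, mix, Fintype.sum_bool, Measure.map_smul, Measure.map_add _ _ p1,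
      Measure.map_map p1 (m1 _), Measure.map_map p1 (m2 _), Measure.map_map p1 (m3 _),
      Function.comp_def, Measure.map_id']
  have e2 : π.map (fun p => p.2.1) = mix ν Y Z := by
    simp only [π, mix, Fintype.sum_bool, Measure.map_smul, Measure.map_add _ _ p2,
      Measure.map_map p2 (m1 _), Measure.map_map p2 (m2 _), Measure.map_map p2 (m3 _),
      Function.comp_def, Measure.map_id']
    congr 1
    abel
  have e3 : π.map (fun p => p.2.2) = mix ν Y Z := by
    simp only [π, mix, Fintype.sum_bool, Measure.map_smul, Measure.map_add _ _ p3,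
      Measure.map_map p3 (m1 _), Measure.map_map p3 (m2 _), Measure.map_map p3 (m3 _),
      Function.comp_def, Measure.map_id']
    congr 1
    abel
  refine ⟨π, ?_, e1, e2, e3, ?_⟩
  · have := h.isProbabilityMeasure_mix ν
    constructor
    have h1 : π.map (fun p => p.1) univ = 1 := by rw [e1]; exact measure_univ
    rwa [Measure.map_apply p1 MeasurableSet.univ, preimage_univ] at h1
  · have key : ∀ k, ∫⁻ x, c x (Y k x) (Z k x) ∂ν =
        ∫⁻ a, U a ∂ν + ∫⁻ a, U (Y k a) ∂ν + ∫⁻ a, U (Z k a) ∂ν := fun k => by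
      rw [← lintegral_add_left hU,
        ← lintegral_add_left (f := fun a => U a + U (Y k a)) (hU.add (hU.comp (h.hY k)))]
      exact lintegral_congr_ae (hν.mono fun x hx => H2 k x hx)
    rw [h.lintegral_mix ν hU]
    simp only [π, lintegral_smul_measure, Fintype.sum_bool, lintegral_add_measure,
      lintegral_map hc (m1 _), lintegral_map hc (m2 _), lintegral_map hc (m3 _), smul_eq_mul]
    simp only [← hcyc _ (Y _ _) (Z _ _), hcyc (Z _ _) _ (Y _ _), key]
    ring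

/-- No Monge plan reaches the dual value. -/
lemma Sheets.lt_monge {B : Set E} {Y Z : Bool → E → E} (h : Sheets B Y Z)
    {ν : Measure E} [IsProbabilityMeasure ν] (hν : ∀ᵐ x ∂ν, x ∈ B)
    {c : E → E → E → ℝ≥0∞} (hc : Measurable fun p : E × E × E => c p.1 p.2.1 p.2.2)
    {U : E → ℝ≥0∞} (hU : Measurable U) (hfin : ∫⁻ a, U a ∂(mix ν Y Z) ≠ ∞)
    (H1 : ∀ a ∈ supp B Y Z, ∀ b ∈ supp B Y Z, ∀ d ∈ supp B Y Z, U a + U b + U d ≤ c a b d)
    (H3 : ∀ a ∈ supp B Y Z, ∀ b ∈ supp B Y Z, ∀ d ∈ supp B Y Z, U a + U b + U d = c a b d →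
      ∃ k, ∃ x ∈ B, ({a, b, d} : Set E) = {x, Y k x, Z k x})
    {T₂ T₃ : E → E} (hT₂ : Measurable T₂) (hT₃ : Measurable T₃)
    (m₂ : (mix ν Y Z).map T₂ = mix ν Y Z) (m₃ : (mix ν Y Z).map T₃ = mix ν Y Z) :
    3 * ∫⁻ a, U a ∂(mix ν Y Z) < ∫⁻ x, c x (T₂ x) (T₃ x) ∂(mix ν Y Z) := by
  have hprob := h.isProbabilityMeasure_mix ν
  have hS := h.ae_supp hν
  have happ := fun {s : Set E} (hs : MeasurableSet s) => h.mix_apply ν hs
  set μ := mix ν Y Z with hμ
  by_contra hle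
  rw [not_lt] at hle
  have hS₂ : ∀ᵐ x ∂μ, T₂ x ∈ supp B Y Z := ae_of_ae_map hT₂.aemeasurable (by rw [m₂]; exact hS)
  have hS₃ : ∀ᵐ x ∂μ, T₃ x ∈ supp B Y Z := ae_of_ae_map hT₃.aemeasurable (by rw [m₃]; exact hS)
  have hsum : ∫⁻ x, U x + U (T₂ x) + U (T₃ x) ∂μ = 3 * ∫⁻ a, U a ∂μ := by
    rw [lintegral_add_left (f := fun x => U x + U (T₂ x)) (hU.add (hU.comp hT₂)),
      lintegral_add_left hU,
      ← lintegral_map hU hT₂, ← lintegral_map hU hT₃, m₂, m₃]
    ring
  have hae : (fun x => U x + U (T₂ x) + U (T₃ x)) =ᵐ[μ] fun x => c x (T₂ x) (T₃ x) := by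
    refine ae_eq_of_ae_le_of_lintegral_le ?_ ?_ ?_ ?_
    · filter_upwards [hS, hS₂, hS₃] with x h1 h2 h3 using H1 _ h1 _ h2 _ h3
    · rw [hsum]; exact ENNReal.mul_ne_top (by norm_num) hfin
    · exact (hc.comp (measurable_id.prodMk (hT₂.prodMk hT₃))).aemeasurable
    · rw [hsum]; exact hle
  have hG : ∀ᵐ a ∂μ, ∃ k, ∃ x ∈ B, ({a, T₂ a, T₃ a} : Set E) = {x, Y k x, Z k x} := by
    filter_upwards [hS, hS₂, hS₃, hae] with x h1 h2 h3 h4 using H3 _ h1 _ h2 _ h3 h4
  let D : Bool → Set E := fun k =>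
    B ∩ (({x | T₂ x = Y k x} ∪ {x | T₂ x = Z k x}) ∩ ({x | T₃ x = Y k x} ∪ {x | T₃ x = Z k x}))
  have hDm : ∀ k, MeasurableSet (D k) := fun k =>
    h.hB.inter (((measurableSet_eq_fun hT₂ (h.hY k)).union
      (measurableSet_eq_fun hT₂ (h.hZ k))).inter ((measurableSet_eq_fun hT₃ (h.hY k)).union
      (measurableSet_eq_fun hT₃ (h.hZ k))))
  have hDB : ∀ k, D k ⊆ B := fun k => inter_subset_left
  have hD0 : ∀ k, μ (D k) = 0 := by
    intro k
    let W : Set E := Y k '' D k ∪ Z k '' D k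
    have hWm : MeasurableSet W :=
      ((hDm k).image_of_measurable_injOn (h.hY k) fun x hx x' hx' e =>
        (h.hYY k k x hx.1 x' hx'.1 e).2).union
      ((hDm k).image_of_measurable_injOn (h.hZ k) fun x hx x' hx' e =>
        (h.hZZ k k x hx.1 x' hx'.1 e).2)
    have hWB : ∀ a ∈ W, a ∉ B := by
      rintro a (⟨x, hx, rfl⟩ | ⟨x, hx, rfl⟩)
      · exact h.hYB k x hx.1
      · exact h.hZB k x hx.1
    have w0 : ν W = 0 := by
      have : ∀ᵐ x ∂ν, x ∉ W := hν.mono fun x hx hW => hWB x hW hx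
      exact measure_eq_zero_iff_ae_notMem.2 this
    have w1 : ν (Y k ⁻¹' W) ≤ ν (D k) := by
      refine measure_mono_ae (hν.mono fun x hx hW => ?_)
      rcases hW with ⟨x', hx', e⟩ | ⟨x', hx', e⟩
      · exact (h.hYY _ _ x' hx'.1 x hx e).2 ▸ hx'
      · exact absurd e.symm (h.hYZ _ _ x hx x' hx'.1)
    have w2 : ν (Z k ⁻¹' W) ≤ ν (D k) := by
      refine measure_mono_ae (hν.mono fun x hx hW => ?_)
      rcases hW with ⟨x', hx', e⟩ | ⟨x', hx', e⟩
      · exact absurd e (h.hYZ _ _ x' hx'.1 x hx)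
      · exact (h.hZZ _ _ x' hx'.1 x hx e).2 ▸ hx'
    have w3 : ν (Y (!k) ⁻¹' W) = 0 := by
      refine measure_eq_zero_iff_ae_notMem.2 (hν.mono fun x hx hW => ?_)
      rcases hW with ⟨x', hx', e⟩ | ⟨x', hx', e⟩
      · simpa using (h.hYY _ _ x' hx'.1 x hx e).1
      · exact absurd e.symm (h.hYZ _ _ x hx x' hx'.1)
    have w4 : ν (Z (!k) ⁻¹' W) = 0 := by
      refine measure_eq_zero_iff_ae_notMem.2 (hν.mono fun x hx hW => ?_)
      rcases hW with ⟨x', hx', e⟩ | ⟨x', hx', e⟩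
      · exact absurd e (h.hYZ _ _ x' hx'.1 x hx)
      · simpa using (h.hZZ _ _ x' hx'.1 x hx e).1
    have hWD : μ W ≤ μ (D k) := by
      rw [happ hWm, happ (hDm k)]
      refine mul_le_mul_right ?_ _
      have : ∑ j, (ν W + ν (Y j ⁻¹' W) + ν (Z j ⁻¹' W)) ≤ ν (D k) + ν (D k) := by
        cases k
        · simp only [Bool.not_false] at w3 w4
          simp only [Fintype.sum_bool, w0, w3, w4, zero_add]
          exact add_le_add w1 w2
        · simp only [Bool.not_true] at w3 w4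
          simp only [Fintype.sum_bool, w0, w3, w4, zero_add, add_zero]
          exact add_le_add w1 w2
      refine this.trans ?_
      rw [Fintype.sum_bool]
      exact add_le_add (le_self_add.trans le_self_add) (le_self_add.trans le_self_add)
    have t2 : μ (D k) + μ (T₂ ⁻¹' W \ B) ≤ μ W := by
      have : μ W = μ (T₂ ⁻¹' W) := by rw [← Measure.map_apply hT₂ hWm, m₂]
      rw [this, ← measure_inter_add_sdiff (T₂ ⁻¹' W) h.hB]
      refine add_le_add (measure_mono fun x hx => ⟨?_, hx.1⟩) le_rfl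
      rcases hx.2.1 with e | e
      · exact Or.inl ⟨x, hx, e.symm⟩
      · exact Or.inr ⟨x, hx, e.symm⟩
    have t3 : μ (D k) + μ (T₃ ⁻¹' W \ B) ≤ μ W := by
      have : μ W = μ (T₃ ⁻¹' W) := by rw [← Measure.map_apply hT₃ hWm, m₃]
      rw [this, ← measure_inter_add_sdiff (T₃ ⁻¹' W) h.hB]
      refine add_le_add (measure_mono fun x hx => ⟨?_, hx.1⟩) le_rfl
      rcases hx.2.2 with e | e
      · exact Or.inl ⟨x, hx, e.symm⟩
      · exact Or.inr ⟨x, hx, e.symm⟩
    have t4 : μ W ≤ μ (T₂ ⁻¹' W \ B) + μ (T₃ ⁻¹' W \ B) := by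
      refine le_trans (measure_mono_ae (hG.mono fun a ha haW => ?_)) (measure_union_le _ _)
      obtain ⟨j, x, hx, e⟩ := ha
      have haB := hWB a haW
      have ha1 : a ∈ ({x, Y j x, Z j x} : Set E) := e ▸ (by simp)
      have hb : ∃ b ∈ W, b ≠ a ∧ b ∈ ({x, Y j x, Z j x} : Set E) := by
        rcases haW with ⟨x', hx', rfl⟩ | ⟨x', hx', rfl⟩
        · rcases ha1 with e1 | e1 | e1
          · exact absurd (e1 ▸ hx) haB
          · obtain ⟨rfl, rfl⟩ := h.hYY _ _ x' hx'.1 x hx e1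
            exact ⟨Z k x', Or.inr ⟨x', hx', rfl⟩, (h.hYZ _ _ x' hx x' hx).symm, by simp⟩
          · exact absurd e1 (h.hYZ _ _ x' hx'.1 x hx)
        · rcases ha1 with e1 | e1 | e1
          · exact absurd (e1 ▸ hx) haB
          · exact absurd e1.symm (h.hYZ _ _ x hx x' hx'.1)
          · obtain ⟨rfl, rfl⟩ := h.hZZ _ _ x' hx'.1 x hx e1
            exact ⟨Y k x', Or.inl ⟨x', hx', rfl⟩, h.hYZ _ _ x' hx x' hx, by simp⟩
      obtain ⟨b, hbW, hba, hb⟩ := hb
      rw [← e] at hb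
      rcases hb with e1 | e1 | e1
      · exact absurd e1 hba
      · exact Or.inl ⟨show T₂ a ∈ W from e1 ▸ hbW, haB⟩
      · exact Or.inr ⟨show T₃ a ∈ W from e1 ▸ hbW, haB⟩
    have f1 : μ W ≠ ∞ := measure_ne_top _ _
    have f2 : μ (D k) ≠ ∞ := measure_ne_top _ _
    have t5 : μ (D k) + μ (D k) + μ W ≤ μ (D k) + μ W := by
      calc μ (D k) + μ (D k) + μ W
          ≤ μ (D k) + μ (D k) + (μ (T₂ ⁻¹' W \ B) + μ (T₃ ⁻¹' W \ B)) := by gcongr
        _ = (μ (D k) + μ (T₂ ⁻¹' W \ B)) + (μ (D k) + μ (T₃ ⁻¹' W \ B)) := by ring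
        _ ≤ μ W + μ W := add_le_add t2 t3
        _ ≤ μ (D k) + μ W := by gcongr
    have t6 : μ (D k) + μ (D k) ≤ μ (D k) + 0 := by
      rw [add_zero]; exact (ENNReal.add_le_add_iff_right f1).1 t5
    exact le_antisymm ((ENNReal.add_le_add_iff_left f2).1 t6) zero_le
  have hB0 : μ B = 0 := by
    have : μ B ≤ μ (D true ∪ D false) := by
      refine measure_mono_ae (hG.mono fun a ha haB => ?_)
      obtain ⟨j, x, hx, e⟩ := ha
      have ha1 : a ∈ ({x, Y j x, Z j x} : Set E) := e ▸ (by simp)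
      have hax : a = x := by
        rcases ha1 with e1 | e1 | e1
        · exact e1
        · exact absurd (e1 ▸ haB) (h.hYB j x hx)
        · exact absurd (e1 ▸ haB) (h.hZB j x hx)
      subst hax
      have hy : Y j a ∈ ({a, T₂ a, T₃ a} : Set E) := e ▸ (by simp)
      have hz : Z j a ∈ ({a, T₂ a, T₃ a} : Set E) := e ▸ (by simp)
      have hyz := h.hYZ j j a hx a hx
      have hya : Y j a ≠ a := fun e1 => h.hYB j a hx (e1.symm ▸ hx)
      have hza : Z j a ≠ a := fun e1 => h.hZB j a hx (e1.symm ▸ hx)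
      have hD : a ∈ D j := by
        refine ⟨hx, ?_⟩
        rcases hy with e1 | e1 | e1
        · exact absurd e1 hya
        · rcases hz with e2 | e2 | e2
          · exact absurd e2 hza
          · exact absurd (e1.trans e2.symm) hyz
          · exact ⟨Or.inl e1.symm, Or.inr (mem_singleton_iff.1 e2).symm⟩
        · rcases hz with e2 | e2 | e2
          · exact absurd e2 hza
          · exact ⟨Or.inr e2.symm, Or.inl (mem_singleton_iff.1 e1).symm⟩
          · exact absurd ((mem_singleton_iff.1 e1).trans (mem_singleton_iff.1 e2).symm) hyz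
      cases j
      · exact Or.inr hD
      · exact Or.inl hD
    refine le_antisymm (this.trans ((measure_union_le _ _).trans ?_)) zero_le
    simp [hD0]
  rw [happ h.hB] at hB0
  have hνB : ν B = 1 := (prob_compl_eq_zero_iff h.hB).1 hν
  simp [hνB] at hB0

end Vale.Agent.P121
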