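import Mathlib

open MeasureTheory
open scoped ENNReal

namespace Vale.Agent.P121

variable {d : ℕ}

/-- The three-particle Coulomb cost `1/|x-y| + 1/|x-z| + 1/|y-z|` with values in `[0, ∞]`;
it equals `∞` when two of the points coincide. -/
noncomputable def coulomb (x y z : EuclideanSpace ℝ (Fin d)) : ℝ≥0∞ :=
  (edist x y)⁻¹ + (edist x z)⁻¹ + (edist y z)⁻¹

/-- `γ` is a Borel probability measure on triples whose three marginals all equal `μ`. -/
def IsCoupling (μ : Measure (EuclideanSpace ℝ (Fin d)))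
    (γ : Measure (EuclideanSpace ℝ (Fin d) × EuclideanSpace ℝ (Fin d) × EuclideanSpace ℝ (Fin d))) :
    Prop :=
  IsProbabilityMeasure γ ∧ γ.map (fun p => p.1) = μ ∧ γ.map (fun p => p.2.1) = μ ∧
    γ.map (fun p => p.2.2) = μ

/-- The Kantorovich value: the infimum of the cost over all couplings. -/
noncomputable def kantorovichValue (μ : Measure (EuclideanSpace ℝ (Fin d))) : ℝ≥0∞ :=
  ⨅ (γ : Measure (EuclideanSpace ℝ (Fin d) × EuclideanSpace ℝ (Fin d) × EuclideanSpace ℝ (Fin d)))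
    (_ : IsCoupling μ γ), ∫⁻ p, coulomb p.1 p.2.1 p.2.2 ∂γ

/-- `μ` admits an optimal Monge plan: Borel maps `T₂, T₃` preserving `μ` whose cost equals the
Kantorovich value. -/
def HasOptimalMongePlan (μ : Measure (EuclideanSpace ℝ (Fin d))) : Prop :=
  ∃ T₂ T₃ : EuclideanSpace ℝ (Fin d) → EuclideanSpace ℝ (Fin d),
    Measurable T₂ ∧ Measurable T₃ ∧ μ.map T₂ = μ ∧ μ.map T₃ = μ ∧
      ∫⁻ x, coulomb x (T₂ x) (T₃ x) ∂μ = kantorovichValue μ

end Vale.Agent.P121
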