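import Vale.Agent.P121.Ineq
import Vale.Agent.P121.Abstract

/-! The dual inequality on the five small pieces. -/

open scoped RealInnerProductSpace ENNReal
open Set

namespace Vale.Agent.P121

variable {E : Type*} [NormedAddCommGroup E] [InnerProductSpace ℝ E]

/-- Geometric data of the two sheets. -/
structure Geo (e : Bool → E) (B : Set E) (Y Z : Bool → E → E) : Prop where
  he : ∀ k, ‖e k‖ = 1
  horth : ⟪e true, e false⟫ = 0
  hB : ∀ x ∈ B, ‖x‖ < 1 / 100
  hY : ∀ k, ∀ x ∈ B, ‖Y k x - e k‖ < 1 / 100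
  hZ : ∀ k, ∀ x ∈ B, ‖Z k x - -e k‖ < 1 / 100
  hcrit : ∀ k, ∀ x ∈ B, crit (e k) (x, Y k x, Z k x) = 0

/-- Potential on the third piece, parametrised by the base point. -/
noncomputable def pot3 (e x y z : E) : ℝ := costR x y z - pot1 x - pot2 e y

omit [InnerProductSpace ℝ E] in
lemma dist_le_of_near {a b p q : E} {r : ℝ} (ha : ‖a - p‖ < 1 / 100) (hb : ‖b - q‖ < 1 / 100)
    (h : ‖p - q‖ ≤ r) : ‖a - b‖ ≤ r + 1 / 50 := by
  have e : a - b = (a - p) + (p - q) - (b - q) := by abel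
  have h1 := norm_sub_le ((a - p) + (p - q)) (b - q)
  have h2 := norm_add_le (a - p) (p - q)
  rw [e]; linarith

omit [InnerProductSpace ℝ E] in
lemma le_dist_of_near {a b p q : E} {r : ℝ} (ha : ‖a - p‖ < 1 / 100) (hb : ‖b - q‖ < 1 / 100)
    (h : r ≤ ‖p - q‖) : r - 1 / 50 ≤ ‖a - b‖ := by
  have := dist_le_of_near (a := p) (b := q) (p := a) (q := b) (r := ‖a - b‖)
    (by rwa [norm_sub_rev]) (by rwa [norm_sub_rev]) le_rfl
  linarith

lemma le_inv_norm {v : ℝ} {r : ℝ} (h0 : 0 < v) (h : v ≤ r) : r⁻¹ ≤ v⁻¹ := inv_anti₀ h0 h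

namespace Geo

variable {e : Bool → E} {B : Set E} {Y Z : Bool → E → E}

lemma inner_ne (h : Geo e B Y Z) {k j : Bool} (hkj : k ≠ j) : ⟪e k, e j⟫ = 0 := by
  cases k <;> cases j
  · exact absurd rfl hkj
  · rw [real_inner_comm]; exact h.horth
  · exact h.horth
  · exact absurd rfl hkj

lemma orth_bounds {p q : E} (hp : ‖p‖ = 1) (hq : ‖q‖ = 1) (h : ⟪p, q⟫ = 0) :
    1 ≤ ‖p - q‖ ∧ ‖p - q‖ ≤ 71 / 50 := by
  have h1 : ‖p - q‖ ^ 2 = 2 := by rw [norm_sub_sq_real, hp, hq, h]; norm_num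
  have h0 := norm_nonneg (p - q)
  constructor <;> nlinarith

lemma norm_two (h : Geo e B Y Z) (k : Bool) : ‖e k - -e k‖ = 2 := by
  have h3 : e k - -e k = (2 : ℝ) • e k := by rw [two_smul]; abel
  rw [h3, norm_smul, h.he]; norm_num

lemma hB' (h : Geo e B Y Z) {x : E} (hx : x ∈ B) : ‖x - 0‖ < 1 / 100 := by
  simpa using h.hB x hx

lemma d01 (h : Geo e B Y Z) (k : Bool) : ‖(0 : E) - e k‖ = 1 := by simp [h.he]

lemma d02 (h : Geo e B Y Z) (k : Bool) : ‖(0 : E) - -e k‖ = 1 := by simp [h.he]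

lemma pot1_bounds (h : Geo e B Y Z) {x : E} (hx : x ∈ B) :
    2 - 1 / 2500 ≤ pot1 x ∧ pot1 x ≤ 2 := by
  have h1 := h.hB x hx
  have h0 := norm_nonneg x
  unfold pot1
  constructor <;> nlinarith

lemma pot2_bounds (h : Geo e B Y Z) (k : Bool) {x : E} (hx : x ∈ B) :
    237 / 1000 ≤ pot2 (e k) (Y k x) ∧ pot2 (e k) (Y k x) ≤ 263 / 1000 := by
  have h1 := h.hY k x hx
  have h0 := norm_nonneg (Y k x - e k)
  have h2 := abs_real_inner_le_norm (e k) (Y k x - e k)
  rw [h.he, one_mul, abs_le] at h2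
  unfold pot2
  constructor <;> nlinarith [h2.1, h2.2]

lemma pot3_bounds (h : Geo e B Y Z) (k : Bool) {x : E} (hx : x ∈ B) :
    0 ≤ pot3 (e k) x (Y k x) (Z k x) ∧ pot3 (e k) x (Y k x) (Z k x) ≤ 8 / 25 := by
  have a1 := h.pot1_bounds hx
  have a2 := h.pot2_bounds k hx
  have u1 := dist_le_of_near (h.hB' hx) (h.hY k x hx) (h.d01 k).le
  have u2 := dist_le_of_near (h.hB' hx) (h.hZ k x hx) (h.d02 k).le
  have u3 := dist_le_of_near (h.hY k x hx) (h.hZ k x hx) (h.norm_two k).le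
  have l1 := le_dist_of_near (h.hB' hx) (h.hY k x hx) (h.d01 k).ge
  have l2 := le_dist_of_near (h.hB' hx) (h.hZ k x hx) (h.d02 k).ge
  have l3 := le_dist_of_near (h.hY k x hx) (h.hZ k x hx) (h.norm_two k).ge
  have b1 := le_inv_norm (by linarith) u1
  have b2 := le_inv_norm (by linarith) u2
  have b3 := le_inv_norm (by linarith) u3
  have c1 := le_inv_norm (by norm_num) l1
  have c2 := le_inv_norm (by norm_num) l2
  have c3 := le_inv_norm (by norm_num) l3
  norm_num at b1 b2 b3 c1 c2 c3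
  unfold pot3 costR
  constructor <;> linarith [a1.1, a1.2, a2.1, a2.2]

/-- Central points with their potential. -/
def Cen (B : Set E) (a : E) (r : ℝ) : Prop := a ∈ B ∧ r = pot1 a

/-- Outer points with their potential. -/
def Out (e : Bool → E) (B : Set E) (Y Z : Bool → E → E) (a : E) (r : ℝ) : Prop :=
  ∃ k, ∃ x ∈ B, (a = Y k x ∧ r = pot2 (e k) (Y k x)) ∨
    (a = Z k x ∧ r = pot3 (e k) x (Y k x) (Z k x))

/-- The conclusion of the dual inequality. -/
def Concl (B : Set E) (Y Z : Bool → E → E) (a b d : E) (s : ℝ) : Prop :=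
  s < costR a b d ∨ (s = costR a b d ∧ ∃ k, ∃ x ∈ B, ({a, b, d} : Set E) = {x, Y k x, Z k x})

omit [InnerProductSpace ℝ E] in
lemma Concl.swap12 {a b d : E} {s : ℝ} (h : Concl B Y Z a b d s) : Concl B Y Z b a d s := by
  have e1 : costR b a d = costR a b d := by
    unfold costR; rw [norm_sub_rev b a]; ring
  have e2 : ({b, a, d} : Set E) = {a, b, d} := insert_comm _ _ _
  unfold Concl
  rw [e1, e2]; exact h

omit [InnerProductSpace ℝ E] in
lemma Concl.swap23 {a b d : E} {s : ℝ} (h : Concl B Y Z a b d s) : Concl B Y Z a d b s := by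
  have e1 : costR a d b = costR a b d := by
    unfold costR; rw [norm_sub_rev d b]; ring
  have e2 : ({a, d, b} : Set E) = {a, b, d} := by rw [pair_comm d b]
  unfold Concl
  rw [e1, e2]; exact h

lemma out_near (h : Geo e B Y Z) {a : E} {r : ℝ} (ha : Out e B Y Z a r) :
    (∃ p, ‖p‖ = 1 ∧ ‖a - p‖ < 1 / 100) ∧ 0 ≤ r ∧ r ≤ 8 / 25 := by
  obtain ⟨k, x, hx, ⟨rfl, rfl⟩ | ⟨rfl, rfl⟩⟩ := ha
  · have := h.pot2_bounds k hx
    exact ⟨⟨e k, h.he k, h.hY k x hx⟩, by linarith [this.1], by linarith [this.2]⟩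
  · exact ⟨⟨-e k, by simp [h.he], h.hZ k x hx⟩, h.pot3_bounds k hx⟩

lemma cen_bounds (h : Geo e B Y Z) {a : E} {r : ℝ} (ha : Cen B a r) : 0 ≤ r ∧ r ≤ 2 := by
  obtain ⟨ha, rfl⟩ := ha
  have := h.pot1_bounds ha
  exact ⟨by linarith [this.1], this.2⟩

lemma lab_bounds (h : Geo e B Y Z) {a : E} {r : ℝ} (ha : Cen B a r ∨ Out e B Y Z a r) :
    0 ≤ r ∧ r ≤ 2 := by
  rcases ha with ha | ha
  · exact h.cen_bounds ha
  · have := (h.out_near ha).2
    exact ⟨this.1, by linarith [this.2]⟩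

lemma ccx (h : Geo e B Y Z) {a b d : E} {r s t : ℝ} (ha : Cen B a r) (hb : Cen B b s)
    (ht : t ≤ 2) (hab : a ≠ b) : Concl B Y Z a b d (r + s + t) := by
  left
  have u1 := dist_le_of_near (r := 0) (h.hB' ha.1) (h.hB' hb.1) (by simp)
  have b1 := le_inv_norm (norm_pos_iff.2 (sub_ne_zero.2 hab)) u1
  have r1 := (h.cen_bounds ha).2
  have r2 := (h.cen_bounds hb).2
  have p1 : 0 ≤ ‖a - d‖⁻¹ := by positivity
  have p2 : 0 ≤ ‖b - d‖⁻¹ := by positivity
  norm_num at b1
  unfold costR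
  linarith

lemma ooo (h : Geo e B Y Z) {a b d : E} {r s t : ℝ} (ha : Out e B Y Z a r) (hb : Out e B Y Z b s)
    (hd : Out e B Y Z d t) (hab : a ≠ b) (had : a ≠ d) (hbd : b ≠ d) :
    Concl B Y Z a b d (r + s + t) := by
  left
  obtain ⟨⟨p, hp, hp'⟩, -, r1⟩ := h.out_near ha
  obtain ⟨⟨q, hq, hq'⟩, -, r2⟩ := h.out_near hb
  obtain ⟨⟨w, hw, hw'⟩, -, r3⟩ := h.out_near hd
  have u1 := dist_le_of_near (r := 2) hp' hq' (by linarith [norm_sub_le p q])
  have u2 := dist_le_of_near (r := 2) hp' hw' (by linarith [norm_sub_le p w])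
  have u3 := dist_le_of_near (r := 2) hq' hw' (by linarith [norm_sub_le q w])
  have b1 := le_inv_norm (norm_pos_iff.2 (sub_ne_zero.2 hab)) u1
  have b2 := le_inv_norm (norm_pos_iff.2 (sub_ne_zero.2 had)) u2
  have b3 := le_inv_norm (norm_pos_iff.2 (sub_ne_zero.2 hbd)) u3
  norm_num at b1 b2 b3
  unfold costR
  linarith

lemma coo_far (h : Geo e B Y Z) {a b d : E} {r s t : ℝ} (ha : Cen B a r) (hb : Out e B Y Z b s)
    (hd : Out e B Y Z d t) (hab : a ≠ b) (had : a ≠ d) (hbd : b ≠ d)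
    (hn : ‖b - d‖ ≤ 71 / 50 + 1 / 50) : Concl B Y Z a b d (r + s + t) := by
  left
  obtain ⟨⟨q, hq, hq'⟩, -, r2⟩ := h.out_near hb
  obtain ⟨⟨w, hw, hw'⟩, -, r3⟩ := h.out_near hd
  have r1 := (h.cen_bounds ha).2
  have u1 := dist_le_of_near (r := 1) (h.hB' ha.1) hq' (by simp [hq])
  have u2 := dist_le_of_near (r := 1) (h.hB' ha.1) hw' (by simp [hw])
  have b1 := le_inv_norm (norm_pos_iff.2 (sub_ne_zero.2 hab)) u1
  have b2 := le_inv_norm (norm_pos_iff.2 (sub_ne_zero.2 had)) u2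
  have b3 := le_inv_norm (norm_pos_iff.2 (sub_ne_zero.2 hbd)) hn
  norm_num at b1 b2 b3
  unfold costR
  linarith

lemma coo_opp (h : Geo e B Y Z) {a x x' : E} (k : Bool) (_ha : a ∈ B) (hx' : x' ∈ B)
    (hab : a ≠ Y k x) (had : a ≠ Z k x') (hbd : Y k x ≠ Z k x') :
    Concl B Y Z a (Y k x) (Z k x')
      (pot1 a + pot2 (e k) (Y k x) + pot3 (e k) x' (Y k x') (Z k x')) := by
  have l1 := le_dist_of_near (h.hB' hx') (h.hY k x' hx') (h.d01 k).ge
  have l2 := le_dist_of_near (h.hB' hx') (h.hZ k x' hx') (h.d02 k).ge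
  have l3 := le_dist_of_near (h.hY k x' hx') (h.hZ k x' hx') (h.norm_two k).ge
  have key := key_ineq (h.hcrit k x' hx') (by linarith) (by linarith) (by linarith) hab had hbd
  by_cases h1 : a = x'
  · by_cases h2 : Y k x = Y k x'
    · right
      rw [h1, h2]
      exact ⟨by unfold pot3; ring, k, x', hx', rfl⟩
    · left
      have : 0 < ‖Y k x - Y k x'‖ ^ 2 := pow_pos (norm_pos_iff.2 (sub_ne_zero.2 h2)) 2
      have h0 : 0 ≤ ‖a - x'‖ ^ 2 := by positivity
      unfold pot3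
      linarith
  · left
    have : 0 < ‖a - x'‖ ^ 2 := pow_pos (norm_pos_iff.2 (sub_ne_zero.2 h1)) 2
    have h0 : 0 ≤ ‖Y k x - Y k x'‖ ^ 2 := by positivity
    unfold pot3
    linarith

lemma coo (h : Geo e B Y Z) {a b d : E} {r s t : ℝ} (ha : Cen B a r) (hb : Out e B Y Z b s)
    (hd : Out e B Y Z d t) (hab : a ≠ b) (had : a ≠ d) (hbd : b ≠ d) :
    Concl B Y Z a b d (r + s + t) := by
  have far := h.coo_far ha hb hd hab had hbd
  obtain ⟨k, x, hx, ⟨rfl, rfl⟩ | ⟨rfl, rfl⟩⟩ := hb <;>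
    obtain ⟨j, x', hx', ⟨rfl, rfl⟩ | ⟨rfl, rfl⟩⟩ := hd
  · refine far (dist_le_of_near (h.hY k x hx) (h.hY j x' hx') ?_)
    by_cases hkj : k = j
    · subst hkj; norm_num
    · exact (orth_bounds (h.he k) (h.he j) (h.inner_ne hkj)).2
  · by_cases hkj : k = j
    · subst hkj
      obtain ⟨ha, rfl⟩ := ha
      exact h.coo_opp k ha hx' hab had hbd
    · refine far (dist_le_of_near (h.hY k x hx) (h.hZ j x' hx') ?_)
      exact (orth_bounds (h.he k) (by simp [h.he]) (by simp [h.inner_ne hkj])).2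
  · by_cases hkj : k = j
    · subst hkj
      obtain ⟨ha, rfl⟩ := ha
      have := (h.coo_opp k ha hx had hab hbd.symm).swap23
      rwa [add_right_comm] at this
    · refine far (dist_le_of_near (h.hZ k x hx) (h.hY j x' hx') ?_)
      exact (orth_bounds (by simp [h.he]) (h.he j) (by simp [h.inner_ne hkj])).2
  · refine far (dist_le_of_near (h.hZ k x hx) (h.hZ j x' hx') ?_)
    by_cases hkj : k = j
    · subst hkj; norm_num
    · exact (orth_bounds (by simp [h.he]) (by simp [h.he]) (by simp [h.inner_ne hkj])).2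

/-- The dual inequality with its equality case, for pairwise distinct points. -/
lemma concl (h : Geo e B Y Z) {a b d : E} {r s t : ℝ} (ha : Cen B a r ∨ Out e B Y Z a r)
    (hb : Cen B b s ∨ Out e B Y Z b s) (hd : Cen B d t ∨ Out e B Y Z d t)
    (hab : a ≠ b) (had : a ≠ d) (hbd : b ≠ d) : Concl B Y Z a b d (r + s + t) := by
  have ra := (h.lab_bounds ha).2
  have rb := (h.lab_bounds hb).2
  have rd := (h.lab_bounds hd).2
  rcases ha with ha | ha <;> rcases hb with hb | hb <;> rcases hd with hd | hd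
  · exact h.ccx ha hb rd hab
  · exact h.ccx ha hb rd hab
  · have := (h.ccx (d := b) ha hd rb had).swap23
    rwa [add_right_comm] at this
  · exact h.coo ha hb hd hab had hbd
  · have := (h.ccx (d := a) hb hd ra hbd).swap23.swap12
    rwa [show s + t + r = r + s + t by ring] at this
  · have := (h.coo hb ha hd hab.symm hbd had).swap12
    rwa [show s + r + t = r + s + t by ring] at this
  · have := (h.coo hd ha hb had.symm hbd.symm hab).swap12.swap23
    rwa [show t + r + s = r + s + t by ring] at this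
  · exact h.ooo ha hb hd hab had hbd

lemma sheets [MeasurableSpace E] (h : Geo e B Y Z) (hB : MeasurableSet B)
    (hY : ∀ k, Measurable (Y k)) (hZ : ∀ k, Measurable (Z k)) (iY : ∀ k, InjOn (Y k) B)
    (iZ : ∀ k, InjOn (Z k) B) : Sheets B Y Z where
  hB := hB
  hY := hY
  hZ := hZ
  hYY := by
    intro k j x hx x' hx' hh
    by_cases hkj : k = j
    · subst hkj; exact ⟨rfl, iY k hx hx' hh⟩
    · have := le_dist_of_near (h.hY k x hx) (h.hY j x' hx')
        (orth_bounds (h.he k) (h.he j) (h.inner_ne hkj)).1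
      rw [hh, sub_self, norm_zero] at this
      norm_num at this
  hZZ := by
    intro k j x hx x' hx' hh
    by_cases hkj : k = j
    · subst hkj; exact ⟨rfl, iZ k hx hx' hh⟩
    · have := le_dist_of_near (h.hZ k x hx) (h.hZ j x' hx')
        (orth_bounds (by simp [h.he]) (by simp [h.he]) (by simp [h.inner_ne hkj])).1
      rw [hh, sub_self, norm_zero] at this
      norm_num at this
  hYZ := by
    intro k j x hx x' hx' hh
    by_cases hkj : k = j
    · subst hkj
      have := le_dist_of_near (h.hY k x hx) (h.hZ k x' hx') (h.norm_two k).ge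
      rw [hh, sub_self, norm_zero] at this
      norm_num at this
    · have := le_dist_of_near (h.hY k x hx) (h.hZ j x' hx')
        (orth_bounds (h.he k) (by simp [h.he]) (by simp [h.inner_ne hkj])).1
      rw [hh, sub_self, norm_zero] at this
      norm_num at this
  hYB := by
    intro k x hx hh
    have := le_dist_of_near (h.hB' hh) (h.hY k x hx) (h.d01 k).ge
    rw [sub_self, norm_zero] at this
    norm_num at this
  hZB := by
    intro k x hx hh
    have := le_dist_of_near (h.hB' hh) (h.hZ k x hx) (h.d02 k).ge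
    rw [sub_self, norm_zero] at this
    norm_num at this

end Geo

end Vale.Agent.P121
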