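import Mathlib

/-! Pointwise inequalities for the Coulomb kernel. -/

open scoped RealInnerProductSpace

namespace Vale.Agent.P121

variable {E : Type*} [NormedAddCommGroup E] [InnerProductSpace ℝ E]

/-- The field `r / |r|^3`. -/
noncomputable def fld (r : E) : E := (‖r‖ ^ 3)⁻¹ • r

lemma fld_neg (r : E) : fld (-r) = - fld r := by
  simp [fld]

/-- Global semiconvexity inequality for `1 / |r|`. -/
lemma inv_norm_ge {r s : E} (hr : r ≠ 0) (hs : s ≠ 0) :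
    ‖r‖⁻¹ - ⟪fld r, s - r⟫ - ‖s - r‖ ^ 2 / (2 * ‖r‖ ^ 3) ≤ ‖s‖⁻¹ := by
  have ha : 0 < ‖r‖ := norm_pos_iff.2 hr
  have hb : 0 < ‖s‖ := norm_pos_iff.2 hs
  have h1 : ‖s - r‖ ^ 2 = ‖s‖ ^ 2 - 2 * ⟪r, s⟫ + ‖r‖ ^ 2 := by
    rw [norm_sub_sq_real, real_inner_comm]
  have h2 : ⟪fld r, s - r⟫ = (‖r‖ ^ 3)⁻¹ * (⟪r, s⟫ - ‖r‖ ^ 2) := by
    rw [fld, real_inner_smul_left, inner_sub_right, real_inner_self_eq_norm_sq]
  rw [h1, h2]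
  set a := ‖r‖
  set b := ‖s‖
  set t := ⟪r, s⟫
  have h3 : b⁻¹ - (a⁻¹ - (a ^ 3)⁻¹ * (t - a ^ 2) - (b ^ 2 - 2 * t + a ^ 2) / (2 * a ^ 3))
      = (b - a) ^ 2 * (b + 2 * a) / (2 * a ^ 3 * b) := by
    field_simp
    ring
  have h4 : 0 ≤ (b - a) ^ 2 * (b + 2 * a) / (2 * a ^ 3 * b) := by positivity
  linarith

lemma inv_norm_ge' {r s : E} (hr : 4 / 5 ≤ ‖r‖) (hs : s ≠ 0) :
    ‖r‖⁻¹ - ⟪fld r, s - r⟫ - ‖s - r‖ ^ 2 ≤ ‖s‖⁻¹ := by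
  have hr0 : r ≠ 0 := by
    intro h; rw [h, norm_zero] at hr; norm_num at hr
  have h := inv_norm_ge hr0 hs
  have h3 : 1 ≤ 2 * ‖r‖ ^ 3 := by
    have : (4 / 5 : ℝ) ^ 3 ≤ ‖r‖ ^ 3 := pow_le_pow_left₀ (by norm_num) hr 3
    norm_num at this
    linarith
  have h4 : ‖s - r‖ ^ 2 / (2 * ‖r‖ ^ 3) ≤ ‖s - r‖ ^ 2 := div_le_self (by positivity) h3
  linarith

/-- Real valued three-particle Coulomb cost. -/
noncomputable def costR (x y z : E) : ℝ := ‖x - y‖⁻¹ + ‖x - z‖⁻¹ + ‖y - z‖⁻¹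

/-- Potential near the origin. -/
noncomputable def pot1 (x : E) : ℝ := 2 - 4 * ‖x‖ ^ 2

/-- Potential near the unit vector `e`. -/
noncomputable def pot2 (e y : E) : ℝ := 1 / 4 - 5 / 4 * ⟪e, y - e⟫ - 4 * ‖y - e‖ ^ 2

/-- The critical point equations. -/
noncomputable def crit (e : E) (p : E × E × E) : E × E :=
  ((8 : ℝ) • p.1 - fld (p.1 - p.2.1) - fld (p.1 - p.2.2),
    (8 : ℝ) • (p.2.1 - e) + (5 / 4 : ℝ) • e + fld (p.1 - p.2.1) - fld (p.2.1 - p.2.2))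

/-- Key inequality: a critical point is a strict global minimum in the first two variables. -/
lemma key_ineq {e x₀ y₀ z x y : E} (hc : crit e (x₀, y₀, z) = 0)
    (h1 : 4 / 5 ≤ ‖x₀ - y₀‖) (h2 : 4 / 5 ≤ ‖x₀ - z‖) (h3 : 4 / 5 ≤ ‖y₀ - z‖)
    (hxy : x ≠ y) (hxz : x ≠ z) (hyz : y ≠ z) :
    costR x₀ y₀ z - pot1 x₀ - pot2 e y₀ + (‖x - x₀‖ ^ 2 + ‖y - y₀‖ ^ 2)
      ≤ costR x y z - pot1 x - pot2 e y := by
  have a1 := inv_norm_ge' h1 (sub_ne_zero.2 hxy)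
  have a2 := inv_norm_ge' h2 (sub_ne_zero.2 hxz)
  have a3 := inv_norm_ge' h3 (sub_ne_zero.2 hyz)
  simp only [crit, Prod.mk_eq_zero] at hc
  obtain ⟨c1, c2⟩ := hc
  obtain ⟨h, rfl⟩ : ∃ h, x = x₀ + h := ⟨x - x₀, by abel⟩
  obtain ⟨k, rfl⟩ : ∃ k, y = y₀ + k := ⟨y - y₀, by abel⟩
  have e1 : x₀ + h - (y₀ + k) - (x₀ - y₀) = h - k := by abel
  have e2 : x₀ + h - z - (x₀ - z) = h := by abel
  have e3 : y₀ + k - z - (y₀ - z) = k := by abel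
  have e4 : x₀ + h - x₀ = h := by abel
  have e5 : y₀ + k - y₀ = k := by abel
  have e6 : y₀ + k - e = (y₀ - e) + k := by abel
  rw [e1] at a1
  rw [e2] at a2
  rw [e3] at a3
  have d1 := congrArg (fun v => ⟪v, h⟫) c1
  have d2 := congrArg (fun v => ⟪v, k⟫) c2
  simp only [inner_sub_left, inner_add_left, real_inner_smul_left, inner_zero_left] at d1 d2
  have n1 : ‖x₀ + h‖ ^ 2 = ‖x₀‖ ^ 2 + 2 * ⟪x₀, h⟫ + ‖h‖ ^ 2 := norm_add_sq_real _ _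
  have n2 : ‖(y₀ - e) + k‖ ^ 2 = ‖y₀ - e‖ ^ 2 + 2 * ⟪y₀ - e, k⟫ + ‖k‖ ^ 2 := norm_add_sq_real _ _
  have n3 : ‖h - k‖ ^ 2 ≤ 2 * ‖h‖ ^ 2 + 2 * ‖k‖ ^ 2 := by
    have := norm_sub_le h k
    have h0 := norm_nonneg (h - k)
    nlinarith [sq_nonneg (‖h‖ - ‖k‖), norm_nonneg h, norm_nonneg k]
  rw [inner_sub_left] at n2
  rw [inner_sub_right] at a1
  simp only [costR, pot1, pot2, e4, e5, e6, inner_add_right, n1, n2]
  linarith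

end Vale.Agent.P121
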