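import Mathlib

/-! Push-forwards of smooth densities under local diffeomorphisms. -/

open scoped Topology ContDiff
open MeasureTheory Set

namespace Vale.Agent.P121

variable {E : Type*} [NormedAddCommGroup E] [NormedSpace ℝ E] [FiniteDimensional ℝ E]

lemma contDiff_det {n : WithTop ℕ∞} : ContDiff ℝ n (fun A : E →L[ℝ] E => A.det) := by
  classical
  let b := Module.finBasis ℝ E
  have h : (fun A : E →L[ℝ] E => A.det) = fun A : E →L[ℝ] E =>
      ∑ σ : Equiv.Perm (Fin (Module.finrank ℝ E)), ((Equiv.Perm.sign σ : ℤ) : ℝ) *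
        ∏ i, b.repr (A (b i)) (σ i) := by
    ext A
    rw [ContinuousLinearMap.det, ← LinearMap.det_toMatrix b, Matrix.det_apply']
    simp [LinearMap.toMatrix_apply]
  rw [h]
  refine ContDiff.sum fun σ _ => contDiff_const.mul (contDiff_prod fun i _ => ?_)
  have h1 : ContDiff ℝ n (fun A : E →L[ℝ] E => A (b i)) :=
    (ContinuousLinearMap.apply ℝ E (b i)).contDiff
  exact (LinearMap.toContinuousLinearMap (b.coord (σ i))).contDiff.comp h1

variable [MeasurableSpace E] [BorelSpace E]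

/-- A smooth nonnegative compactly supported function. -/
def Nice (ρ : E → ℝ) : Prop := ContDiff ℝ ∞ ρ ∧ HasCompactSupport ρ ∧ ∀ x, 0 ≤ ρ x

/-- `Y` is measurable, injective on `B` and pushes nice densities supported in `B` to nice
densities. -/
def GoodMap (m : Measure E) (B : Set E) (Y : E → E) : Prop :=
  Measurable Y ∧ InjOn Y B ∧ ∀ ρ : E → ℝ, Nice ρ → tsupport ρ ⊆ B →
    ∃ ρ' : E → ℝ, Nice ρ' ∧ (m.withDensity fun x => ENNReal.ofReal (ρ x)).map Y =
      m.withDensity fun x => ENNReal.ofReal (ρ' x)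

omit [FiniteDimensional ℝ E] [BorelSpace E] in
lemma GoodMap.mono {m : Measure E} {B B' : Set E} {Y : E → E} (h : GoodMap m B Y) (hB : B' ⊆ B) :
    GoodMap m B' Y :=
  ⟨h.1, h.2.1.mono hB, fun ρ h1 h2 => h.2.2 ρ h1 (h2.trans hB)⟩

lemma goodMap_of_inverse (m : Measure E) [m.IsAddHaarMeasure] {B V : Set E} {Y X : E → E}
    (hB : IsOpen B) (hV : IsOpen V) (hY : Measurable Y) (hYc : ContinuousOn Y B)
    (hYV : MapsTo Y B V) (hXB : MapsTo X V B) (hXY : ∀ x ∈ B, X (Y x) = x)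
    (hYX : ∀ y ∈ V, Y (X y) = y) (hX : ∀ y ∈ V, ContDiffAt ℝ ∞ X y)
    (hdet : ∀ y ∈ V, (fderiv ℝ X y).det ≠ 0) : GoodMap m B Y := by
  refine ⟨hY, fun x hx x' hx' h => by rw [← hXY x hx, h, hXY x' hx'], fun ρ hρ hsupp => ?_⟩
  obtain ⟨ρs, ρc, ρ0⟩ := hρ
  let ρ' : E → ℝ := V.indicator fun y => |(fderiv ℝ X y).det| * ρ (X y)
  have hC : IsCompact (Y '' tsupport ρ) := ρc.isCompact.image_of_continuousOn (hYc.mono hsupp)
  have hzero : ∀ y, y ∉ Y '' tsupport ρ → ρ' y = 0 := by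
    intro y hy
    by_cases hyV : y ∈ V
    · have : X y ∉ tsupport ρ := fun h => hy ⟨X y, h, hYX y hyV⟩
      simp [ρ', indicator_of_mem hyV, image_eq_zero_of_notMem_tsupport this]
    · simp [ρ', indicator_of_notMem hyV]
  refine ⟨ρ', ⟨?_, ?_, ?_⟩, ?_⟩
  · rw [contDiff_iff_contDiffAt]
    intro y
    by_cases hyV : y ∈ V
    · have h1 : ContDiffAt ℝ ∞ (fderiv ℝ X) y := (hX y hyV).fderiv_right (by simp)
      have h2 : ContDiffAt ℝ ∞ (fun y => (fderiv ℝ X y).det) y := contDiff_det.contDiffAt.comp y h1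
      have h3 : ContDiffAt ℝ ∞ (fun y => |(fderiv ℝ X y).det| * ρ (X y)) y :=
        (h2.abs (hdet y hyV)).mul (ρs.contDiffAt.comp y (hX y hyV))
      refine h3.congr_of_eventuallyEq ?_
      filter_upwards [hV.mem_nhds hyV] with z hz
      simp [ρ', indicator_of_mem hz]
    · have hy : y ∉ Y '' tsupport ρ := by
        rintro ⟨x, hx, rfl⟩
        exact hyV (hYV (hsupp hx))
      refine (contDiffAt_const (c := (0 : ℝ))).congr_of_eventuallyEq ?_
      filter_upwards [hC.isClosed.isOpen_compl.mem_nhds hy] with z hz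
      exact hzero z hz
  · exact HasCompactSupport.intro hC hzero
  · intro y
    exact indicator_nonneg (fun y _ => mul_nonneg (abs_nonneg _) (ρ0 _)) y
  · ext s hs
    rw [Measure.map_apply hY hs, withDensity_apply _ (hY hs), withDensity_apply _ hs]
    have e1 : ∫⁻ x in Y ⁻¹' s, ENNReal.ofReal (ρ x) ∂m
        = ∫⁻ x in Y ⁻¹' s ∩ B, ENNReal.ofReal (ρ x) ∂m := by
      rw [← lintegral_indicator (hY hs), ← lintegral_indicator ((hY hs).inter hB.measurableSet)]
      congr 1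
      ext x
      by_cases hx : x ∈ B
      · by_cases hx' : x ∈ Y ⁻¹' s
        · rw [indicator_of_mem hx', indicator_of_mem (mem_inter hx' hx)]
        · rw [indicator_of_notMem hx', indicator_of_notMem (fun h => hx' h.1)]
      · have : ρ x = 0 := image_eq_zero_of_notMem_tsupport fun h => hx (hsupp h)
        rw [indicator_of_notMem (s := Y ⁻¹' s ∩ B) (fun h => hx h.2)]
        by_cases hx' : x ∈ Y ⁻¹' s
        · rw [indicator_of_mem hx', this, ENNReal.ofReal_zero]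
        · rw [indicator_of_notMem hx']
    have e2 : Y ⁻¹' s ∩ B = X '' (s ∩ V) := by
      ext x
      constructor
      · rintro ⟨h1, h2⟩
        exact ⟨Y x, ⟨h1, hYV h2⟩, hXY x h2⟩
      · rintro ⟨y, ⟨h1, h2⟩, rfl⟩
        exact ⟨by simpa [hYX y h2] using h1, hXB h2⟩
    have e3 := lintegral_image_eq_lintegral_abs_det_fderiv_mul m (s := s ∩ V) (f := X)
      (f' := fun y => fderiv ℝ X y) (hs.inter hV.measurableSet)
      (fun y hy => ((hX y hy.2).differentiableAt (by simp)).hasFDerivAt.hasFDerivWithinAt)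
      (fun y hy y' hy' h => by rw [← hYX y hy.2, h, hYX y' hy'.2])
      (fun x => ENNReal.ofReal (ρ x))
    rw [e1, e2, e3, ← lintegral_indicator (hs.inter hV.measurableSet), ← lintegral_indicator hs]
    congr 1
    ext y
    by_cases hy : y ∈ s
    · by_cases hyV : y ∈ V
      · rw [indicator_of_mem (mem_inter hy hyV), indicator_of_mem hy]
        simp only [ρ', indicator_of_mem hyV]
        rw [ENNReal.ofReal_mul (abs_nonneg _)]
      · rw [indicator_of_notMem (fun h => hyV h.2), indicator_of_mem hy]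
        simp [ρ', indicator_of_notMem hyV]
    · rw [indicator_of_notMem (fun h => hy h.1), indicator_of_notMem hy]

lemma exists_goodMap (m : Measure E) [m.IsAddHaarMeasure] {Y₀ : E → E} {a : E}
    (hY : ContDiffAt ℝ ω Y₀ a) (hinj : Function.Injective (fderiv ℝ Y₀ a)) :
    ∃ U ∈ 𝓝 a, ∃ Y : E → E, GoodMap m U Y ∧ EqOn Y Y₀ U := by
  classical
  have hn : (ω : WithTop ℕ∞) ≠ 0 := by simp
  have hn' : (ω : WithTop ℕ∞) ≠ ∞ := by simp
  let A : E ≃L[ℝ] E :=
    (LinearEquiv.ofInjectiveEndo (fderiv ℝ Y₀ a : E →ₗ[ℝ] E) hinj).toContinuousLinearEquiv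
  have hA : (A : E →L[ℝ] E) = fderiv ℝ Y₀ a := ContinuousLinearMap.ext fun v => by simp [A]
  have hd : HasFDerivAt Y₀ (A : E →L[ℝ] E) a := by
    rw [hA]; exact (hY.differentiableAt hn).hasFDerivAt
  let φ := hY.toOpenPartialHomeomorph Y₀ hd hn
  have hφ : (φ : E → E) = Y₀ := rfl
  have ha : a ∈ φ.source := hY.mem_toOpenPartialHomeomorph_source hd hn
  have hX : ContDiffAt ℝ ω φ.symm (Y₀ a) := hY.to_localInverse hd hn
  obtain ⟨O₁, hO₁, hO₁o, haO₁⟩ := mem_nhds_iff.1 (hY.eventually hn')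
  obtain ⟨O₂, hO₂, hO₂o, haO₂⟩ := mem_nhds_iff.1 (hX.eventually hn')
  replace hO₁ : ∀ {x}, x ∈ O₁ → ContDiffAt ℝ ω Y₀ x := fun hx => hO₁ hx
  replace hO₂ : ∀ {x}, x ∈ O₂ → ContDiffAt ℝ ω φ.symm x := fun hx => hO₂ hx
  let B : Set E := (φ.source ∩ φ ⁻¹' O₂) ∩ O₁
  have hBo : IsOpen B := (φ.isOpen_inter_preimage hO₂o).inter hO₁o
  have haB : a ∈ B := ⟨⟨ha, haO₂⟩, haO₁⟩
  have hBs : B ⊆ φ.source := fun x hx => hx.1.1
  let V : Set E := φ '' B
  have hVo : IsOpen V := (φ.isOpen_image_iff_of_subset_source hBs).2 hBo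
  let Y : E → E := B.piecewise Y₀ (fun _ => 0)
  have hYeq : EqOn Y Y₀ B := fun x hx => piecewise_eq_of_mem _ _ _ hx
  have hc : ContinuousOn Y₀ B := φ.continuousOn.mono hBs
  have hYm : Measurable Y := hc.measurable_piecewise continuousOn_const hBo.measurableSet
  refine ⟨B, hBo.mem_nhds haB, Y, ?_, hYeq⟩
  refine goodMap_of_inverse m (X := φ.symm) hBo hVo hYm (hc.congr hYeq) ?_ ?_ ?_ ?_ ?_ ?_
  · intro x hx
    exact ⟨x, hx, (hYeq hx).symm⟩
  · rintro y ⟨x, hx, rfl⟩
    rw [φ.left_inv (hBs hx)]; exact hx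
  · intro x hx
    rw [hYeq hx]; exact φ.left_inv (hBs hx)
  · rintro y ⟨x, hx, rfl⟩
    rw [φ.left_inv (hBs hx), hYeq hx]; rfl
  · rintro y ⟨x, hx, rfl⟩
    exact (hO₂ hx.1.2).of_le le_top
  · rintro y ⟨x, hx, rfl⟩
    have d1 : HasFDerivAt φ.symm (fderiv ℝ φ.symm (φ x)) (φ x) :=
      ((hO₂ hx.1.2).differentiableAt hn).hasFDerivAt
    have d2 : HasFDerivAt φ (fderiv ℝ Y₀ x) (φ.symm (φ x)) := by
      rw [φ.left_inv (hBs hx)]
      exact ((hO₁ hx.2).differentiableAt hn).hasFDerivAt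
    have d3 := d2.comp (φ x) d1
    have d4 : HasFDerivAt (φ ∘ φ.symm) (ContinuousLinearMap.id ℝ E) (φ x) := by
      refine (hasFDerivAt_id (φ x)).congr_of_eventuallyEq ?_
      filter_upwards [φ.open_target.mem_nhds (φ.map_source (hBs hx))] with z hz
      exact φ.right_inv hz
    have h5 := d3.unique d4
    intro h0
    have h6 := congrArg ContinuousLinearMap.det h5
    have h7 : ((fderiv ℝ Y₀ x).comp (fderiv ℝ φ.symm (φ x))).det
        = (fderiv ℝ Y₀ x).det * (fderiv ℝ φ.symm (φ x)).det := by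
      simp only [ContinuousLinearMap.det]
      exact LinearMap.det_comp _ _
    rw [h7, h0, mul_zero] at h6
    simp [ContinuousLinearMap.det] at h6

end Vale.Agent.P121
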