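import Vale.Agent.P121.Ineq

/-! The local sheet of critical points, by the implicit function theorem. -/

open scoped RealInnerProductSpace Topology ContDiff

namespace Vale.Agent.P121

variable {E : Type*} [NormedAddCommGroup E] [InnerProductSpace ℝ E]

lemma contDiffAt_fld {r : E} (hr : r ≠ 0) : ContDiffAt ℝ ω (fld : E → E) r := by
  have h1 : ContDiffAt ℝ ω (fun x : E => ‖x‖) r := contDiffAt_norm ℝ hr
  have h2 : ContDiffAt ℝ ω (fun x : E => (‖x‖ ^ 3)⁻¹) r :=
    (h1.pow 3).inv (pow_ne_zero 3 (norm_ne_zero_iff.2 hr))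
  exact h2.smul contDiffAt_id

/-- The derivative of the field. -/
lemma hasFDerivAt_fld {r : E} (hr : r ≠ 0) :
    ∃ L : E →L[ℝ] E, HasFDerivAt (fld : E → E) L r ∧
      ∀ h, L h = (‖r‖ ^ 3)⁻¹ • h - (3 * ⟪r, h⟫ / ‖r‖ ^ 5) • r := by
  have ha : 0 < ‖r‖ := norm_pos_iff.2 hr
  have h0 : HasFDerivAt (fun x : E => ‖x‖ ^ 2) ((2 : ℝ) • innerSL ℝ r) r := by
    have := (hasStrictFDerivAt_norm_sq r).hasFDerivAt
    convert this using 1
    ext h
    simp
  have h1 := h0.sqrt (by positivity)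
  have h2 : (fun x : E => √(‖x‖ ^ 2)) = fun x : E => ‖x‖ := by
    ext x; simp
  rw [h2] at h1
  have h3 := (h1.pow 3)
  have h4 := (hasDerivAt_inv (x := ‖r‖ ^ 3) (by positivity)).comp_hasFDerivAt r h3
  have h5 := h4.smul (hasFDerivAt_id r)
  refine ⟨_, h5, fun h => ?_⟩
  simp only [Function.comp, add_apply, smul_apply,
    ContinuousLinearMap.id_apply, ContinuousLinearMap.smulRight_apply, id, innerSL_apply_apply,
    smul_eq_mul, Real.sqrt_sq ha.le, nsmul_eq_mul]
  rw [sub_eq_add_neg, ← neg_smul]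
  congr 2
  field_simp
  ring

lemma hasFDerivAt_fld_unit {e : E} (he : ‖e‖ = 1) (t : ℝ) (ht : t ≠ 0) :
    ∃ L : E →L[ℝ] E, HasFDerivAt (fld : E → E) L (t • e) ∧
      ∀ h, L h = (|t| ^ 3)⁻¹ • (h - (3 * ⟪e, h⟫) • e) := by
  have he0 : e ≠ 0 := by
    intro h; rw [h, norm_zero] at he; norm_num at he
  obtain ⟨L, hL, hL'⟩ := hasFDerivAt_fld (smul_ne_zero ht he0)
  refine ⟨L, hL, fun h => ?_⟩
  rw [hL', norm_smul, he, Real.norm_eq_abs, mul_one, real_inner_smul_left, smul_smul, smul_sub,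
    smul_smul]
  congr 2
  have h1 : 0 < |t| := abs_pos.2 ht
  have h2 : |t| ^ 2 = t ^ 2 := sq_abs t
  have h3 : |t| ^ 5 = |t| ^ 3 * t ^ 2 := by rw [← h2]; ring
  rw [h3]
  field_simp

lemma fld_smul_unit {e : E} (he : ‖e‖ = 1) (t : ℝ) : fld (t • e) = ((|t| ^ 3)⁻¹ * t) • e := by
  rw [fld, norm_smul, he, Real.norm_eq_abs, mul_one, smul_smul]

lemma crit_base {e : E} (he : ‖e‖ = 1) : crit e (0, e, -e) = 0 := by
  have h1 : (0 : E) - e = (-1 : ℝ) • e := by simp
  have h2 : (0 : E) - -e = (1 : ℝ) • e := by simp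
  have h3 : e - -e = (2 : ℝ) • e := by rw [two_smul]; abel
  simp only [crit, h1, h2, h3, fld_smul_unit he, Prod.mk_eq_zero]
  constructor
  · norm_num
  · norm_num
    module

lemma contDiffAt_crit {e : E} (he : ‖e‖ = 1) : ContDiffAt ℝ ω (crit e) (0, e, -e) := by
  have he0 : e ≠ 0 := by
    intro h; rw [h, norm_zero] at he; norm_num at he
  have h3 : e - -e = (2 : ℝ) • e := by rw [two_smul]; abel
  have a1 : ContDiffAt ℝ ω (fun p : E × E × E => fld (p.1 - p.2.1)) (0, e, -e) :=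
    ContDiffAt.comp (g := fld) (f := fun p : E × E × E => p.1 - p.2.1) ((0 : E), e, -e)
      (contDiffAt_fld (r := (0 : E) - e) (by simpa using he0)) (by fun_prop)
  have a2 : ContDiffAt ℝ ω (fun p : E × E × E => fld (p.1 - p.2.2)) (0, e, -e) :=
    ContDiffAt.comp (g := fld) (f := fun p : E × E × E => p.1 - p.2.2) ((0 : E), e, -e)
      (contDiffAt_fld (r := (0 : E) - -e) (by simpa using he0)) (by fun_prop)
  have a3 : ContDiffAt ℝ ω (fun p : E × E × E => fld (p.2.1 - p.2.2)) (0, e, -e) :=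
    ContDiffAt.comp (g := fld) (f := fun p : E × E × E => p.2.1 - p.2.2) ((0 : E), e, -e)
      (contDiffAt_fld (r := e - -e) (by rw [h3]; exact smul_ne_zero two_ne_zero he0))
      (by fun_prop)
  unfold crit
  refine ContDiffAt.prodMk ?_ ?_
  · exact (ContDiffAt.sub (by fun_prop) a1).sub a2
  · exact (ContDiffAt.add (by fun_prop) a1).sub a3

/-- The derivative of the critical point map at the base configuration. -/
lemma fderiv_crit {e : E} (he : ‖e‖ = 1) (h k l : E) :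
    fderiv ℝ (crit e) (0, e, -e) (h, k, l) =
      ((8 : ℝ) • h - ((h - k) - (3 * ⟪e, h - k⟫) • e) - ((h - l) - (3 * ⟪e, h - l⟫) • e),
        (8 : ℝ) • k + ((h - k) - (3 * ⟪e, h - k⟫) • e)
          - (1 / 8 : ℝ) • ((k - l) - (3 * ⟪e, k - l⟫) • e)) := by
  have h1 : (0 : E) - e = (-1 : ℝ) • e := by simp
  have h2 : (0 : E) - -e = (1 : ℝ) • e := by simp
  have h3 : e - -e = (2 : ℝ) • e := by rw [two_smul]; abel
  obtain ⟨L1, hL1, hL1'⟩ := hasFDerivAt_fld_unit he (-1) (by norm_num)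
  obtain ⟨L2, hL2, hL2'⟩ := hasFDerivAt_fld_unit he 1 (by norm_num)
  obtain ⟨L3, hL3, hL3'⟩ := hasFDerivAt_fld_unit he 2 (by norm_num)
  rw [← h1] at hL1
  rw [← h2] at hL2
  rw [← h3] at hL3
  let p₀ : E × E × E := (0, e, -e)
  have f1 : HasFDerivAt (fun p : E × E × E => p.1) (ContinuousLinearMap.fst ℝ E (E × E)) p₀ :=
    hasFDerivAt_fst
  have f2 : HasFDerivAt (fun p : E × E × E => p.2.1)
      ((ContinuousLinearMap.fst ℝ E E).comp (ContinuousLinearMap.snd ℝ E (E × E))) p₀ :=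
    hasFDerivAt_fst.comp p₀ hasFDerivAt_snd
  have f3 : HasFDerivAt (fun p : E × E × E => p.2.2)
      ((ContinuousLinearMap.snd ℝ E E).comp (ContinuousLinearMap.snd ℝ E (E × E))) p₀ :=
    hasFDerivAt_snd.comp p₀ hasFDerivAt_snd
  have a1 := hL1.comp p₀ (f1.sub f2)
  have a2 := hL2.comp p₀ (f1.sub f3)
  have a3 := hL3.comp p₀ (f2.sub f3)
  have b1 := ((f1.const_smul (8 : ℝ)).sub a1).sub a2
  have b2 := (((((f2.sub_const e).const_smul (8 : ℝ)).add_const ((5 / 4 : ℝ) • e))).add a1).sub a3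
  have c := b1.prodMk b2
  have c' : HasFDerivAt (crit e) _ p₀ := c
  rw [c'.fderiv]
  simp only [ContinuousLinearMap.prod_apply, sub_apply,
    add_apply, smul_apply, ContinuousLinearMap.comp_apply,
    ContinuousLinearMap.coe_fst', ContinuousLinearMap.coe_snd', hL1', hL2', hL3']
  norm_num

/-- Nondegeneracy of the linearised equations. -/
lemma lin_nondeg {e : E} (he : ‖e‖ = 1) {h k l : E}
    (H : fderiv ℝ (crit e) (0, e, -e) (h, k, l) = 0) (H0 : h = 0 ∨ k = 0 ∨ l = 0) :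
    h = 0 ∧ k = 0 ∧ l = 0 := by
  rw [fderiv_crit he, Prod.mk_eq_zero] at H
  obtain ⟨H1, H2⟩ := H
  have hee : ⟪e, e⟫ = 1 := by rw [real_inner_self_eq_norm_sq, he]; norm_num
  have I1 := congrArg (fun v => ⟪e, v⟫) H1
  have I2 := congrArg (fun v => ⟪e, v⟫) H2
  simp only [inner_sub_right, inner_add_right, real_inner_smul_right, hee, inner_zero_right]
    at I1 I2 H1 H2
  rcases H0 with rfl | rfl | rfl
  · simp only [inner_zero_right] at I1 I2 H1 H2
    have hk : ⟪e, k⟫ = 0 := by linarith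
    have hl : ⟪e, l⟫ = 0 := by linarith
    simp only [hk, hl, sub_zero, mul_zero, zero_smul] at H1 H2
    refine ⟨rfl, ?_, ?_⟩
    · linear_combination (norm := module) (-(1 / 54 : ℝ)) • H1 + (4 / 27 : ℝ) • H2
    · linear_combination (norm := module) ((55 / 54 : ℝ)) • H1 - (4 / 27 : ℝ) • H2
  · simp only [inner_zero_right] at I1 I2 H1 H2
    have hk : ⟪e, h⟫ = 0 := by linarith
    have hl : ⟪e, l⟫ = 0 := by linarith
    simp only [hk, hl, sub_zero, mul_zero, zero_smul] at H1 H2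
    refine ⟨?_, rfl, ?_⟩
    · linear_combination (norm := module) (-(1 / 2 : ℝ)) • H1 + (4 : ℝ) • H2
    · linear_combination (norm := module) ((4 : ℝ)) • H1 - (24 : ℝ) • H2
  · simp only [inner_zero_right] at I1 I2 H1 H2
    have hk : ⟪e, h⟫ = 0 := by linarith
    have hl : ⟪e, k⟫ = 0 := by linarith
    simp only [hk, hl, sub_zero, mul_zero, zero_smul] at H1 H2
    refine ⟨?_, ?_, rfl⟩
    · linear_combination (norm := module) ((55 / 322 : ℝ)) • H1 - (8 / 322 : ℝ) • H2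
    · linear_combination (norm := module) (-(8 / 322 : ℝ)) • H1 + (48 / 322 : ℝ) • H2

/-- The sheet of critical points through `(0, e, -e)`. -/
lemma exists_sheet [FiniteDimensional ℝ E] {e : E} (he : ‖e‖ = 1) :
    ∃ Y Z : E → E, ContDiffAt ℝ ω Y 0 ∧ ContDiffAt ℝ ω Z 0 ∧ Y 0 = e ∧ Z 0 = -e ∧
      (∀ᶠ x in 𝓝 (0 : E), crit e (x, Y x, Z x) = 0) ∧
      Function.Injective (fderiv ℝ Y 0) ∧ Function.Injective (fderiv ℝ Z 0) := by
  have hc := contDiffAt_crit he
  have hn : (ω : WithTop ℕ∞) ≠ 0 := by simp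
  have hinj : Function.Injective
      (fderiv ℝ (crit e) (0, e, -e) ∘L ContinuousLinearMap.inr ℝ E (E × E)) := by
    rw [injective_iff_map_eq_zero]
    rintro ⟨k, l⟩ hkl
    have := lin_nondeg he (h := 0) (k := k) (l := l) (by simpa using hkl) (Or.inl rfl)
    simp [this.2.1, this.2.2]
  have hinv : (fderiv ℝ (crit e) (0, e, -e) ∘L ContinuousLinearMap.inr ℝ E (E × E)).IsInvertible := by
    set A := fderiv ℝ (crit e) (0, e, -e) ∘L ContinuousLinearMap.inr ℝ E (E × E)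
    refine ⟨(LinearEquiv.ofInjectiveEndo (A : E × E →ₗ[ℝ] E × E) hinj).toContinuousLinearEquiv, ?_⟩
    exact ContinuousLinearMap.ext fun v => by simp
  set ψ := hc.implicitFunction hn hinv with hψ
  have ψ0 : ψ 0 = (e, -e) := hc.implicitFunction_apply_self hn hinv
  have ψc : ContDiffAt ℝ ω ψ 0 := hc.contDiffAt_implicitFunction hn hinv
  have ψe : ∀ᶠ x in 𝓝 (0 : E), crit e (x, ψ x) = 0 := by
    have := hc.eventually_apply_implicitFunction hn hinv
    rw [crit_base he] at this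
    exact this
  have ψd : DifferentiableAt ℝ ψ 0 := ψc.differentiableAt hn
  have key : ∀ h : E, fderiv ℝ (crit e) (0, e, -e) (h, fderiv ℝ ψ 0 h) = 0 := by
    intro h
    have d1 : HasFDerivAt (fun x : E => (x, ψ x))
        ((ContinuousLinearMap.id ℝ E).prod (fderiv ℝ ψ 0)) 0 :=
      (hasFDerivAt_id (0 : E)).prodMk ψd.hasFDerivAt
    have d2 : HasFDerivAt (crit e) (fderiv ℝ (crit e) (0, e, -e)) ((0 : E), ψ 0) := by
      rw [ψ0]; exact (hc.differentiableAt hn).hasFDerivAt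
    have d3 := d2.comp (0 : E) d1
    have d4 : HasFDerivAt (crit e ∘ fun x : E => (x, ψ x)) (0 : E →L[ℝ] E × E) 0 :=
      (hasFDerivAt_const (0 : E × E) (0 : E)).congr_of_eventuallyEq ψe
    have := congrArg (fun L : E →L[ℝ] E × E => L h) (d3.unique d4)
    simpa using this
  have dY : fderiv ℝ (fun x => (ψ x).1) 0 = (ContinuousLinearMap.fst ℝ E E).comp (fderiv ℝ ψ 0) :=
    ψd.hasFDerivAt.fst.fderiv
  have dZ : fderiv ℝ (fun x => (ψ x).2) 0 = (ContinuousLinearMap.snd ℝ E E).comp (fderiv ℝ ψ 0) :=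
    ψd.hasFDerivAt.snd.fderiv
  refine ⟨fun x => (ψ x).1, fun x => (ψ x).2, ψc.fst, ψc.snd, by simp [ψ0], by simp [ψ0],
    ψe, ?_, ?_⟩
  · rw [injective_iff_map_eq_zero]
    intro h hh
    rw [dY] at hh
    exact (lin_nondeg he (key h) (Or.inr (Or.inl (by simpa using hh)))).1
  · rw [injective_iff_map_eq_zero]
    intro h hh
    rw [dZ] at hh
    exact (lin_nondeg he (key h) (Or.inr (Or.inr (by simpa using hh)))).1

end Vale.Agent.P121
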