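import Vale.Agent.P121.Geo
import Vale.Agent.P121.Sheet
import Vale.Agent.P121.Push
import Vale.Agent.P121.Defs

/-! Assembly of the counterexample. -/

open scoped RealInnerProductSpace ENNReal Topology
open Set MeasureTheory

namespace Vale.Agent.P121

section general

variable {E : Type*} [NormedAddCommGroup E] [InnerProductSpace ℝ E]

/-- Extended valued cost. -/
noncomputable def costE (x y z : E) : ℝ≥0∞ := (edist x y)⁻¹ + (edist x z)⁻¹ + (edist y z)⁻¹

omit [InnerProductSpace ℝ E] in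
lemma inv_edist {x y : E} (h : x ≠ y) : (edist x y)⁻¹ = ENNReal.ofReal ‖x - y‖⁻¹ := by
  rw [edist_dist, dist_eq_norm, ENNReal.ofReal_inv_of_pos (norm_pos_iff.2 (sub_ne_zero.2 h))]

omit [InnerProductSpace ℝ E] in
lemma costE_eq {x y z : E} (h1 : x ≠ y) (h2 : x ≠ z) (h3 : y ≠ z) :
    costE x y z = ENNReal.ofReal (costR x y z) := by
  unfold costE costR
  rw [inv_edist h1, inv_edist h2, inv_edist h3, ENNReal.ofReal_add (by positivity) (by positivity),
    ENNReal.ofReal_add (by positivity) (by positivity)]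

omit [InnerProductSpace ℝ E] in
lemma costE_top {x y z : E} (h : ¬ (x ≠ y ∧ x ≠ z ∧ y ≠ z)) : costE x y z = ∞ := by
  unfold costE
  by_cases h1 : x = y
  · simp [h1]
  by_cases h2 : x = z
  · simp [h2]
  by_cases h3 : y = z
  · simp [h3]
  exact absurd ⟨h1, h2, h3⟩ h

omit [InnerProductSpace ℝ E] in
lemma costE_cyc (a b c : E) : costE a b c = costE b c a := by
  unfold costE
  rw [edist_comm b a, edist_comm c a]
  ring

variable [FiniteDimensional ℝ E] [MeasurableSpace E] [BorelSpace E]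

lemma measurable_costE : Measurable fun p : E × E × E => costE p.1 p.2.1 p.2.2 := by
  unfold costE
  fun_prop

lemma exists_local (m : Measure E) [m.IsAddHaarMeasure] {e : E} (he : ‖e‖ = 1) :
    ∃ Y Z : E → E, ∃ U ∈ 𝓝 (0 : E), GoodMap m U Y ∧ GoodMap m U Z ∧ ∀ x ∈ U,
      ‖Y x - e‖ < 1 / 100 ∧ ‖Z x - -e‖ < 1 / 100 ∧ crit e (x, Y x, Z x) = 0 := by
  obtain ⟨Y₀, Z₀, hY, hZ, hY0, hZ0, hc, iY, iZ⟩ := exists_sheet he
  obtain ⟨U₁, hU₁, Y, gY, eY⟩ := exists_goodMap m hY iY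
  obtain ⟨U₂, hU₂, Z, gZ, eZ⟩ := exists_goodMap m hZ iZ
  have n1 : ∀ᶠ x in 𝓝 (0 : E), ‖Y₀ x - e‖ < 1 / 100 := by
    have := hY.continuousAt.eventually (Metric.ball_mem_nhds (Y₀ 0) (ε := 1 / 100) (by norm_num))
    simpa [hY0, dist_eq_norm] using this
  have n2 : ∀ᶠ x in 𝓝 (0 : E), ‖Z₀ x - -e‖ < 1 / 100 := by
    have := hZ.continuousAt.eventually (Metric.ball_mem_nhds (Z₀ 0) (ε := 1 / 100) (by norm_num))
    simpa only [hZ0, Metric.mem_ball, dist_eq_norm] using this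
  refine ⟨Y, Z, (U₁ ∩ U₂) ∩ {x | ‖Y₀ x - e‖ < 1 / 100 ∧ ‖Z₀ x - -e‖ < 1 / 100 ∧
    crit e (x, Y₀ x, Z₀ x) = 0}, Filter.inter_mem (Filter.inter_mem hU₁ hU₂) (n1.and (n2.and hc)),
    gY.mono fun x hx => hx.1.1, gZ.mono fun x hx => hx.1.2, fun x hx => ?_⟩
  rw [eY hx.1.1, eZ hx.1.2]
  exact hx.2

omit [FiniteDimensional ℝ E] [MeasurableSpace E] [BorelSpace E] in
lemma Nice.add {ρ σ : E → ℝ} (h1 : Nice ρ) (h2 : Nice σ) : Nice fun x => ρ x + σ x :=
  ⟨h1.1.add h2.1, h1.2.1.add h2.2.1, fun x => add_nonneg (h1.2.2 x) (h2.2.2 x)⟩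

omit [FiniteDimensional ℝ E] [MeasurableSpace E] [BorelSpace E] in
lemma Nice.mul {ρ : E → ℝ} (h1 : Nice ρ) {c : ℝ} (hc : 0 ≤ c) : Nice fun x => c * ρ x :=
  ⟨contDiff_const.mul h1.1, h1.2.1.mul_left, fun x => mul_nonneg hc (h1.2.2 x)⟩

omit [FiniteDimensional ℝ E] in
lemma Nice.measurable {ρ : E → ℝ} (h1 : Nice ρ) : Measurable fun x => ENNReal.ofReal (ρ x) :=
  h1.1.continuous.measurable.ennreal_ofReal

omit [FiniteDimensional ℝ E] in
lemma withDensity_add_nice (m : Measure E) {ρ σ : E → ℝ} (h1 : Nice ρ) (h2 : Nice σ) :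
    (m.withDensity fun x => ENNReal.ofReal (ρ x + σ x)) =
      (m.withDensity fun x => ENNReal.ofReal (ρ x)) + m.withDensity fun x => ENNReal.ofReal (σ x) := by
  rw [← withDensity_add_left h1.measurable]
  congr 1
  ext x
  simp [ENNReal.ofReal_add (h1.2.2 x) (h2.2.2 x)]

omit [FiniteDimensional ℝ E] in
lemma withDensity_mul_nice (m : Measure E) {ρ : E → ℝ} (h1 : Nice ρ) :
    (m.withDensity fun x => ENNReal.ofReal (6⁻¹ * ρ x)) =
      (6 : ℝ≥0∞)⁻¹ • m.withDensity fun x => ENNReal.ofReal (ρ x) := by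
  rw [← withDensity_smul _ h1.measurable]
  congr 1
  ext x
  rw [ENNReal.ofReal_mul (by norm_num), ENNReal.ofReal_inv_of_pos (by norm_num)]
  simp

theorem general_counterexample (m : Measure E) [m.IsAddHaarMeasure] (e : Bool → E)
    (he : ∀ k, ‖e k‖ = 1) (horth : ⟪e true, e false⟫ = 0) :
    ∃ ρ : E → ℝ, Nice ρ ∧ ∃ μ : Measure E, μ = m.withDensity (fun x => ENNReal.ofReal (ρ x)) ∧
      IsProbabilityMeasure μ ∧ ∃ I : ℝ≥0∞, I < ∞ ∧
      (∃ π : Measure (E × E × E), IsProbabilityMeasure π ∧ π.map (fun p => p.1) = μ ∧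
        π.map (fun p => p.2.1) = μ ∧ π.map (fun p => p.2.2) = μ ∧
        ∫⁻ p, costE p.1 p.2.1 p.2.2 ∂π = I) ∧
      ∀ T₂ T₃ : E → E, Measurable T₂ → Measurable T₃ → μ.map T₂ = μ → μ.map T₃ = μ →
        I < ∫⁻ x, costE x (T₂ x) (T₃ x) ∂μ := by
  choose Y Z U hU gY gZ hloc using fun k => exists_local m (he k)
  obtain ⟨δ, hδ, hball⟩ := Metric.mem_nhds_iff.1 (Filter.inter_mem (Filter.inter_mem (hU true)
    (hU false)) (Metric.ball_mem_nhds (0 : E) (ε := 1 / 100) (by norm_num)))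
  set B : Set E := Metric.ball 0 δ with hBdef
  have hBU : ∀ k, B ⊆ U k := fun k x hx => by
    cases k
    · exact (hball hx).1.2
    · exact (hball hx).1.1
  have geo : Geo e B Y Z :=
    { he := he
      horth := horth
      hB := fun x hx => by simpa using (hball hx).2
      hY := fun k x hx => (hloc k x (hBU k hx)).1
      hZ := fun k x hx => (hloc k x (hBU k hx)).2.1
      hcrit := fun k x hx => (hloc k x (hBU k hx)).2.2 }
  have gY' : ∀ k, GoodMap m B (Y k) := fun k => (gY k).mono (hBU k)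
  have gZ' : ∀ k, GoodMap m B (Z k) := fun k => (gZ k).mono (hBU k)
  have sh : Sheets B Y Z := geo.sheets Metric.isOpen_ball.measurableSet (fun k => (gY k).1)
    (fun k => (gZ k).1) (fun k => (gY' k).2.1) (fun k => (gZ' k).2.1)
  -- the base density
  let φ : ContDiffBump (0 : E) := ⟨δ / 4, δ / 2, by positivity, by linarith⟩
  have nice0 : Nice (φ.normed m) :=
    ⟨φ.contDiff_normed, φ.hasCompactSupport_normed, φ.nonneg_normed⟩
  have supp0 : tsupport (φ.normed m) ⊆ B := by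
    rw [φ.tsupport_normed_eq]
    exact Metric.closedBall_subset_ball (by change δ / 2 < δ; linarith)
  set ν : Measure E := m.withDensity fun x => ENNReal.ofReal (φ.normed m x) with hν
  have hνp : IsProbabilityMeasure ν := by
    constructor
    rw [hν, withDensity_apply _ MeasurableSet.univ, Measure.restrict_univ,
      ← ofReal_integral_eq_lintegral_ofReal φ.integrable_normed
        (Filter.Eventually.of_forall φ.nonneg_normed), φ.integral_normed]
    simp
  have hνB : ∀ᵐ x ∂ν, x ∈ B := by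
    rw [hν, ae_withDensity_iff nice0.measurable]
    refine Filter.Eventually.of_forall fun x hx => supp0 (subset_tsupport _ ?_)
    intro h0
    simp [h0] at hx
  choose ρY nY eY using fun k => (gY' k).2.2 _ nice0 supp0
  choose ρZ nZ eZ using fun k => (gZ' k).2.2 _ nice0 supp0
  have nk : ∀ k, Nice fun x => φ.normed m x + ρY k x + ρZ k x := fun k =>
    (nice0.add (nY k)).add (nZ k)
  have nall := (nk true).add (nk false)
  -- the potential
  have mY := sh.hY
  have mZ := sh.hZ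
  obtain ⟨P, hP, P0, P1, P2⟩ := sh.exists_pot (v₀ := fun x => ENNReal.ofReal (pot1 x))
    (v₁ := fun k x => ENNReal.ofReal (pot2 (e k) (Y k x)))
    (v₂ := fun k x => ENNReal.ofReal (pot3 (e k) x (Y k x) (Z k x)))
    (by unfold pot1; fun_prop)
    (fun k => by
      have := mY k
      unfold pot2; fun_prop)
    (fun k => by
      have := mY k
      have := mZ k
      unfold pot3 costR pot1 pot2; fun_prop)
  have lab : ∀ a ∈ supp B Y Z, ∃ r : ℝ, P a = ENNReal.ofReal r ∧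
      (Geo.Cen B a r ∨ Geo.Out e B Y Z a r) := by
    rintro a (ha | ha)
    · exact ⟨_, P0 a ha, Or.inl ⟨ha, rfl⟩⟩
    · obtain ⟨k, ⟨x, hx, rfl⟩ | ⟨x, hx, rfl⟩⟩ := mem_iUnion.1 ha
      · exact ⟨_, P1 k x hx, Or.inr ⟨k, x, hx, Or.inl ⟨rfl, rfl⟩⟩⟩
      · exact ⟨_, P2 k x hx, Or.inr ⟨k, x, hx, Or.inr ⟨rfl, rfl⟩⟩⟩
  have hprob := sh.isProbabilityMeasure_mix ν
  have hfin : ∫⁻ a, P a ∂(mix ν Y Z) ≠ ∞ := by
    have : ∫⁻ a, P a ∂(mix ν Y Z) ≤ ∫⁻ _, 2 ∂(mix ν Y Z) := by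
      refine lintegral_mono_ae ((sh.ae_supp hνB).mono fun a ha => ?_)
      obtain ⟨r, h1, h2⟩ := lab a ha
      rw [h1]
      exact ENNReal.ofReal_le_of_le_toReal (by simpa using (geo.lab_bounds h2).2)
    refine ne_top_of_le_ne_top ?_ this
    simp
  have both : ∀ a ∈ supp B Y Z, ∀ b ∈ supp B Y Z, ∀ c ∈ supp B Y Z,
      P a + P b + P c < costE a b c ∨ (P a + P b + P c = costE a b c ∧
        ∃ k, ∃ x ∈ B, ({a, b, c} : Set E) = {x, Y k x, Z k x}) := by
    intro a ha b hb c hc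
    obtain ⟨r, hr, lr⟩ := lab a ha
    obtain ⟨s, hs, ls⟩ := lab b hb
    obtain ⟨t, ht, lt⟩ := lab c hc
    have r0 := (geo.lab_bounds lr).1
    have s0 := (geo.lab_bounds ls).1
    have t0 := (geo.lab_bounds lt).1
    rw [hr, hs, ht, ← ENNReal.ofReal_add r0 s0, ← ENNReal.ofReal_add (add_nonneg r0 s0) t0]
    by_cases hd : a ≠ b ∧ a ≠ c ∧ b ≠ c
    · rw [costE_eq hd.1 hd.2.1 hd.2.2]
      rcases geo.concl lr ls lt hd.1 hd.2.1 hd.2.2 with h | h
      · exact Or.inl ((ENNReal.ofReal_lt_ofReal_iff_of_nonneg (by positivity)).2 h)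
      · exact Or.inr ⟨by rw [h.1], h.2⟩
    · rw [costE_top hd]
      exact Or.inl ENNReal.ofReal_lt_top
  refine ⟨_, nall.mul (c := 6⁻¹) (by norm_num), mix ν Y Z, ?_, hprob,
    3 * ∫⁻ a, P a ∂(mix ν Y Z), ENNReal.mul_lt_top (by norm_num) hfin.lt_top, ?_, ?_⟩
  · rw [withDensity_mul_nice m nall, withDensity_add_nice m (nk true) (nk false),
      withDensity_add_nice m (nice0.add (nY true)) (nZ true),
      withDensity_add_nice m (nice0.add (nY false)) (nZ false),
      withDensity_add_nice m nice0 (nY true), withDensity_add_nice m nice0 (nY false),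
      ← eY, ← eY, ← eZ, ← eZ, mix, Fintype.sum_bool]
  · refine sh.exists_plan hνB measurable_costE costE_cyc hP fun k x hx => ?_
    have h1 : x ≠ Y k x := fun h => sh.hYB k x hx (h ▸ hx)
    have h2 : x ≠ Z k x := fun h => sh.hZB k x hx (h ▸ hx)
    have h3 : Y k x ≠ Z k x := sh.hYZ k k x hx x hx
    have b1 := geo.pot1_bounds hx
    have b2 := geo.pot2_bounds k hx
    have b3 := geo.pot3_bounds k hx
    rw [costE_eq h1 h2 h3, P0 x hx, P1 k x hx, P2 k x hx,
      ← ENNReal.ofReal_add (by linarith [b1.1]) (by linarith [b2.1]),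
      ← ENNReal.ofReal_add (by linarith [b1.1, b2.1]) b3.1]
    congr 1
    unfold pot3
    ring
  · intro T₂ T₃ hT₂ hT₃ m₂ m₃
    refine sh.lt_monge hνB measurable_costE hP hfin ?_ ?_ hT₂ hT₃ m₂ m₃
    · intro a ha b hb c hc
      rcases both a ha b hb c hc with h | h
      · exact h.le
      · exact h.1.le
    · intro a ha b hb c hc heq
      rcases both a ha b hb c hc with h | h
      · exact absurd heq h.ne
      · exact h.2

end general

/-- The counterexample in every dimension `d ≥ 2`. -/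
theorem counterexample {d : ℕ} (hd : 2 ≤ d) :
    ∃ ρ : EuclideanSpace ℝ (Fin d) → ℝ, ContDiff ℝ (⊤ : ℕ∞) ρ ∧ HasCompactSupport ρ ∧
      (∀ x, 0 ≤ ρ x) ∧
      IsProbabilityMeasure (volume.withDensity fun x => ENNReal.ofReal (ρ x)) ∧
      (volume.withDensity fun x => ENNReal.ofReal (ρ x)) ≪ volume ∧
      kantorovichValue (volume.withDensity fun x => ENNReal.ofReal (ρ x)) < ∞ ∧
      ¬ HasOptimalMongePlan (volume.withDensity fun x => ENNReal.ofReal (ρ x)) := by
  let i₀ : Fin d := ⟨0, by omega⟩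
  let i₁ : Fin d := ⟨1, by omega⟩
  have hne : i₀ ≠ i₁ := by simp [i₀, i₁]
  obtain ⟨ρ, hρ, μ, hμ, hp, I, hI, ⟨π, h0, h1, h2, h3, h4⟩, hM⟩ :=
    general_counterexample (volume : Measure (EuclideanSpace ℝ (Fin d)))
      (fun k => EuclideanSpace.single (if k then i₀ else i₁) (1 : ℝ)) (fun k => by simp)
      (by simp [EuclideanSpace.inner_single_left, hne])
  have hle : kantorovichValue μ ≤ I := by
    unfold kantorovichValue
    exact iInf₂_le_of_le π ⟨h0, h1, h2, h3⟩ h4.le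
  refine ⟨ρ, hρ.1, hρ.2.1, hρ.2.2, hμ ▸ hp, withDensity_absolutelyContinuous _ _,
    hμ ▸ hle.trans_lt hI, ?_⟩
  rw [← hμ]
  rintro ⟨T₂, T₃, a1, a2, a3, a4, a5⟩
  exact absurd (hle.trans_lt (hM T₂ T₃ a1 a2 a3 a4)) (by rw [← a5]; exact lt_irrefl _)

end Vale.Agent.P121
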